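import Vale.Agent.Lib.P102.Defs

/-!
Basic properties of triple correlations.
-/

namespace Vale.Agent.Lib.P102

open MeasureTheory Filter Topology

variable {Ω : Type*} [MeasurableSpace Ω] {μ : Measure Ω} {T : Equiv.Perm Ω}

/-- All integer powers of an invertible measure preserving map with measurable inverse are
measure preserving. -/
lemma mp_zpow (hT : MeasurePreserving T μ μ) (hTs : Measurable T.symm) (n : ℤ) :
    MeasurePreserving (⇑(T ^ n)) μ μ := by
  let e : Ω ≃ᵐ Ω := ⟨T, hT.measurable, hTs⟩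
  have hs : MeasurePreserving (⇑T.symm) μ μ := MeasurePreserving.symm e hT
  cases n with
  | ofNat k =>
    have : (⇑(T ^ (Int.ofNat k))) = (⇑T)^[k] := by
      simp [Equiv.Perm.iterate_eq_pow]
    rw [this]
    exact hT.iterate k
  | negSucc k =>
    have : (⇑(T ^ (Int.negSucc k))) = (⇑T.symm)^[k + 1] := by
      rw [zpow_negSucc, ← inv_pow, Equiv.Perm.iterate_eq_pow]
      rfl
    rw [this]
    exact hs.iterate (k + 1)

lemma preimage_zpow_add (a b : ℤ) (A : Set Ω) :
    (⇑(T ^ a)) ⁻¹' ((⇑(T ^ b)) ⁻¹' A) = (⇑(T ^ (b + a))) ⁻¹' A := by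
  ext ω
  simp [zpow_add, Equiv.Perm.mul_apply]

end Vale.Agent.Lib.P102
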