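import Vale.Agent.Lib.P102.Sym

/-!
A Cauchy-Schwarz inequality for finitely many events, and the extremality step.
-/

set_option linter.unusedSectionVars false

namespace Vale.Agent.Lib.P102

open MeasureTheory Filter Topology

variable {Ω : Type*} [MeasurableSpace Ω] {μ : Measure Ω} [IsProbabilityMeasure μ]

/-- `(∑ μ(F k))² ≤ ∑∑ μ(F k ∩ F j)` in a probability space. -/
lemma sq_sum_le (N : ℕ) (F : ℕ → Set Ω) (hF : ∀ k, MeasurableSet (F k)) :
    (∑ k ∈ Finset.range N, μ.real (F k)) ^ 2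
      ≤ ∑ k ∈ Finset.range N, ∑ j ∈ Finset.range N, μ.real (F k ∩ F j) := by
  set f : Ω → ℝ := fun ω => ∑ k ∈ Finset.range N, (F k).indicator (1 : Ω → ℝ) ω with hf
  have hi : ∀ k, Integrable ((F k).indicator (1 : Ω → ℝ)) μ := fun k =>
    (integrable_const (1 : ℝ)).indicator (hF k)
  have hint : Integrable f μ := integrable_finsetSum _ fun k _ => hi k
  have h1 : ∫ ω, f ω ∂μ = ∑ k ∈ Finset.range N, μ.real (F k) := by
    rw [hf, integral_finsetSum _ fun k _ => hi k]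
    exact Finset.sum_congr rfl fun k _ => integral_indicator_one (hF k)
  have hsq : ∀ ω, f ω ^ 2 = ∑ k ∈ Finset.range N, ∑ j ∈ Finset.range N,
      (F k ∩ F j).indicator (1 : Ω → ℝ) ω := by
    intro ω
    rw [hf, sq, Finset.sum_mul_sum]
    refine Finset.sum_congr rfl fun k _ => Finset.sum_congr rfl fun j _ => ?_
    rw [Set.inter_indicator_one]; rfl
  have hi2 : ∀ k j, Integrable ((F k ∩ F j).indicator (1 : Ω → ℝ)) μ := fun k j =>
    (integrable_const (1 : ℝ)).indicator ((hF k).inter (hF j))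
  have hint2 : Integrable (fun ω => f ω ^ 2) μ := by
    simp_rw [hsq]
    exact integrable_finsetSum _ fun k _ => integrable_finsetSum _ fun j _ => hi2 k j
  have h2 : ∫ ω, f ω ^ 2 ∂μ
      = ∑ k ∈ Finset.range N, ∑ j ∈ Finset.range N, μ.real (F k ∩ F j) := by
    simp_rw [hsq]
    rw [integral_finsetSum _ fun k _ => integrable_finsetSum _ fun j _ => hi2 k j]
    refine Finset.sum_congr rfl fun k _ => ?_
    rw [integral_finsetSum _ fun j _ => hi2 k j]
    exact Finset.sum_congr rfl fun j _ => integral_indicator_one ((hF k).inter (hF j))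
  set m := ∫ ω, f ω ∂μ with hm
  have h3 : 0 ≤ ∫ ω, (f ω - m) ^ 2 ∂μ := integral_nonneg fun ω => sq_nonneg _
  have h4 : ∫ ω, (f ω - m) ^ 2 ∂μ = ∫ ω, f ω ^ 2 ∂μ - m ^ 2 := by
    have e : ∀ ω, (f ω - m) ^ 2 = f ω ^ 2 - 2 * m * f ω + m ^ 2 := fun ω => by ring
    simp_rw [e]
    have i1 : Integrable (fun ω => 2 * m * f ω) μ := hint.const_mul _
    have i2 : Integrable (fun ω => f ω ^ 2 - 2 * m * f ω) μ := hint2.sub i1
    rw [integral_add i2 (integrable_const _), integral_sub hint2 i1, integral_const_mul,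
      integral_const]
    simp only [probReal_univ, smul_eq_mul, one_mul]
    rw [← hm]; ring
  rw [← h1, ← h2]
  linarith

variable {S : ℤ → Ω → Ω}

section

variable (hS : Sys μ S)
include hS

/-- Averaging a triple correlation over `N` shifts and applying Cauchy-Schwarz. -/
lemma sq_c_le (x : ℤ × ℤ) (J : ℤ) (N : ℕ) {X Y W : Set Ω} (hX : MeasurableSet X)
    (hY : MeasurableSet Y) (hW : MeasurableSet W) :
    (N : ℝ) ^ 2 * c μ S x X Y W ^ 2 ≤ ∑ k ∈ Finset.range N, ∑ j ∈ Finset.range N,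
      c μ S x (S (k * J) ⁻¹' X ∩ S (j * J) ⁻¹' X) (S (k * J) ⁻¹' Y ∩ S (j * J) ⁻¹' Y)
        (S (k * J) ⁻¹' W ∩ S (j * J) ⁻¹' W) := by
  have h := sq_sum_le (μ := μ) N
    (fun k : ℕ => S (k * J) ⁻¹' X ∩ S x.1 ⁻¹' (S (k * J) ⁻¹' Y) ∩
      S (x.1 + x.2) ⁻¹' (S (k * J) ⁻¹' W))
    (fun k => ((hS.meas hX _).inter (hS.meas (hS.meas hY _) _)).inter
      (hS.meas (hS.meas hW _) _))
  have e1 : ∀ k : ℕ, μ.real (S (k * J) ⁻¹' X ∩ S x.1 ⁻¹' (S (k * J) ⁻¹' Y) ∩
      S (x.1 + x.2) ⁻¹' (S (k * J) ⁻¹' W)) = c μ S x X Y W := fun k =>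
    c_shift hS x (k * J) hX hY hW
  simp_rw [e1] at h
  rw [Finset.sum_const, Finset.card_range, nsmul_eq_mul, mul_pow] at h
  refine h.trans (le_of_eq ?_)
  refine Finset.sum_congr rfl fun k _ => Finset.sum_congr rfl fun j _ => ?_
  unfold c
  congr 1
  ext ω
  simp only [Set.mem_inter_iff, Set.mem_preimage]
  tauto

end

end Vale.Agent.Lib.P102
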