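import Vale.Agent.Lib.P102.Basic

/-!
Triple correlations of a measure preserving `ℤ`-action: elementary properties.
-/

set_option linter.unusedSectionVars false

namespace Vale.Agent.Lib.P102

open MeasureTheory Filter Topology

variable {Ω : Type*} [MeasurableSpace Ω]

/-- A measure preserving `ℤ`-action, given by its time-`n` maps. -/
structure Sys (μ : Measure Ω) (S : ℤ → Ω → Ω) : Prop where
  mp : ∀ n, MeasurePreserving (S n) μ μ
  add : ∀ (a b : ℤ) (A : Set Ω), S a ⁻¹' (S b ⁻¹' A) = S (b + a) ⁻¹' A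

/-- pair correlation -/
noncomputable def r (μ : Measure Ω) (S : ℤ → Ω → Ω) (n : ℤ) (A B : Set Ω) : ℝ :=
  μ.real (A ∩ S n ⁻¹' B)

/-- triple correlation at times `0, x.1, x.1 + x.2` -/
noncomputable def c (μ : Measure Ω) (S : ℤ → Ω → Ω) (x : ℤ × ℤ) (A B C : Set Ω) : ℝ :=
  μ.real (A ∩ S x.1 ⁻¹' B ∩ S (x.1 + x.2) ⁻¹' C)

/-- the filter `x.1 → ∞`, `x.2 → ∞` -/
noncomputable def l : Filter (ℤ × ℤ) := atTop ×ˢ atTop

instance : l.NeBot := by unfold l; infer_instance

variable {μ : Measure Ω} [IsProbabilityMeasure μ] {S : ℤ → Ω → Ω}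

section basic

variable (hS : Sys μ S)
include hS

lemma Sys.meas {A : Set Ω} (hA : MeasurableSet A) (n : ℤ) : MeasurableSet (S n ⁻¹' A) :=
  (hS.mp n).measurable hA

lemma Sys.real_preimage {A : Set Ω} (hA : MeasurableSet A) (n : ℤ) :
    μ.real (S n ⁻¹' A) = μ.real A := by
  unfold Measure.real
  rw [(hS.mp n).measure_preimage hA.nullMeasurableSet]

lemma c_nonneg (x : ℤ × ℤ) (A B C : Set Ω) : 0 ≤ c μ S x A B C := measureReal_nonneg

omit hS in
lemma c_mono {x : ℤ × ℤ} {A A' B B' C C' : Set Ω} (h1 : A ⊆ A') (h2 : B ⊆ B') (h3 : C ⊆ C') :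
    c μ S x A B C ≤ c μ S x A' B' C' := by
  unfold c
  exact measureReal_mono (Set.inter_subset_inter (Set.inter_subset_inter h1 (Set.preimage_mono h2))
    (Set.preimage_mono h3))

lemma c_union₁ (x : ℤ × ℤ) {A₁ A₂ B C : Set Ω} (hd : Disjoint A₁ A₂)
    (h2 : MeasurableSet A₂) (hB : MeasurableSet B) (hC : MeasurableSet C) :
    c μ S x (A₁ ∪ A₂) B C = c μ S x A₁ B C + c μ S x A₂ B C := by
  unfold c
  rw [← measureReal_union]
  · congr 1
    rw [Set.union_inter_distrib_right, Set.union_inter_distrib_right]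
  · exact (hd.mono (Set.inter_subset_left.trans Set.inter_subset_left)
      (Set.inter_subset_left.trans Set.inter_subset_left))
  · exact (h2.inter (hS.meas hB _)).inter (hS.meas hC _)

lemma c_union₂ (x : ℤ × ℤ) {A B₁ B₂ C : Set Ω} (hd : Disjoint B₁ B₂)
    (hA : MeasurableSet A) (h2 : MeasurableSet B₂) (hC : MeasurableSet C) :
    c μ S x A (B₁ ∪ B₂) C = c μ S x A B₁ C + c μ S x A B₂ C := by
  unfold c
  rw [← measureReal_union]
  · congr 1
    rw [Set.preimage_union, Set.inter_union_distrib_left, Set.union_inter_distrib_right]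
  · have : Disjoint (S x.1 ⁻¹' B₁) (S x.1 ⁻¹' B₂) := hd.preimage _
    exact (this.mono (Set.inter_subset_left.trans Set.inter_subset_right)
      (Set.inter_subset_left.trans Set.inter_subset_right))
  · exact (hA.inter (hS.meas h2 _)).inter (hS.meas hC _)

lemma c_union₃ (x : ℤ × ℤ) {A B C₁ C₂ : Set Ω} (hd : Disjoint C₁ C₂)
    (hA : MeasurableSet A) (hB : MeasurableSet B) (h2 : MeasurableSet C₂) :
    c μ S x A B (C₁ ∪ C₂) = c μ S x A B C₁ + c μ S x A B C₂ := by
  unfold c
  rw [← measureReal_union]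
  · congr 1
    rw [Set.preimage_union, Set.inter_union_distrib_left]
  · have : Disjoint (S (x.1 + x.2) ⁻¹' C₁) (S (x.1 + x.2) ⁻¹' C₂) := hd.preimage _
    exact (this.mono Set.inter_subset_right Set.inter_subset_right)
  · exact (hA.inter (hS.meas hB _)).inter (hS.meas h2 _)

omit hS in
lemma c_univ₃ (x : ℤ × ℤ) (A B : Set Ω) : c μ S x A B Set.univ = r μ S x.1 A B := by
  simp [c, r]

omit hS in
lemma c_univ₂ (x : ℤ × ℤ) (A C : Set Ω) : c μ S x A Set.univ C = r μ S (x.1 + x.2) A C := by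
  simp [c, r]

lemma c_univ₁ (x : ℤ × ℤ) {B C : Set Ω} (hB : MeasurableSet B) (hC : MeasurableSet C) :
    c μ S x Set.univ B C = r μ S x.2 B C := by
  unfold c r
  rw [Set.univ_inter, ← hS.real_preimage (hB.inter (hS.meas hC x.2)) x.1, Set.preimage_inter,
    hS.add, add_comm x.2 x.1]

omit hS in
lemma r_univ_right (n : ℤ) (A : Set Ω) : r μ S n A Set.univ = μ.real A := by
  simp [r]

lemma r_univ_left (n : ℤ) {B : Set Ω} (hB : MeasurableSet B) : r μ S n Set.univ B = μ.real B := by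
  simp [r, hS.real_preimage hB]

/-- invariance of triple correlations -/
lemma c_shift (x : ℤ × ℤ) (k : ℤ) {A B C : Set Ω} (hA : MeasurableSet A) (hB : MeasurableSet B)
    (hC : MeasurableSet C) :
    c μ S x (S k ⁻¹' A) (S k ⁻¹' B) (S k ⁻¹' C) = c μ S x A B C := by
  unfold c
  rw [← hS.real_preimage ((hA.inter (hS.meas hB x.1)).inter (hS.meas hC (x.1 + x.2))) k,
    Set.preimage_inter, Set.preimage_inter, hS.add, hS.add, hS.add, hS.add,
    add_comm k x.1, add_comm k (x.1 + x.2)]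

lemma r_shift (j k : ℤ) {A B : Set Ω} (hA : MeasurableSet A) (hB : MeasurableSet B) :
    μ.real (S j ⁻¹' A ∩ S k ⁻¹' B) = r μ S (k - j) A B := by
  unfold r
  rw [← hS.real_preimage (hA.inter (hS.meas hB (k - j))) j, Set.preimage_inter, hS.add,
    sub_add_cancel]

lemma c_le₁ (x : ℤ × ℤ) (A B C : Set Ω) : c μ S x A B C ≤ μ.real A :=
  measureReal_mono (Set.inter_subset_left.trans Set.inter_subset_left)

lemma c_le₂ (x : ℤ × ℤ) (A : Set Ω) {B : Set Ω} (hB : MeasurableSet B) (C : Set Ω) :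
    c μ S x A B C ≤ μ.real B := by
  rw [← hS.real_preimage hB x.1]
  exact measureReal_mono (Set.inter_subset_left.trans Set.inter_subset_right)

lemma c_le₃ (x : ℤ × ℤ) (A B : Set Ω) {C : Set Ω} (hC : MeasurableSet C) :
    c μ S x A B C ≤ μ.real C := by
  rw [← hS.real_preimage hC (x.1 + x.2)]
  exact measureReal_mono Set.inter_subset_right

end basic

end Vale.Agent.Lib.P102
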