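import Mathlib

/-!
Definitions for Rokhlin's multiple mixing problem (P102).
-/

namespace Vale.Agent.Lib.P102

open MeasureTheory

variable {Ω : Type*} [MeasurableSpace Ω]

/-- `T` is mixing for `μ`: `μ(A ∩ T^{-n} B) → μ(A) μ(B)` as `|n| → ∞`, for all measurable
`A`, `B`. -/
def Mixing (μ : Measure Ω) (T : Equiv.Perm Ω) : Prop :=
  ∀ A B : Set Ω, MeasurableSet A → MeasurableSet B → ∀ ε : ℝ, 0 < ε → ∃ N : ℤ, ∀ n : ℤ,
    N ≤ |n| → |μ.real (A ∩ (T ^ n) ⁻¹' B) - μ.real A * μ.real B| < ε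

/-- `T` is mixing of order `k` for `μ`: `μ(⋂ i, T^{-t i} A i) → ∏ i, μ(A i)` when the integer times
`t 0 < t 1 < ...` have all gaps tending to infinity. -/
def MixingOfOrder (μ : Measure Ω) (T : Equiv.Perm Ω) (k : ℕ) : Prop :=
  ∀ A : Fin k → Set Ω, (∀ i, MeasurableSet (A i)) → ∀ ε : ℝ, 0 < ε → ∃ N : ℤ, ∀ t : Fin k → ℤ,
    (∀ i j : Fin k, i < j → N ≤ t j - t i) →
      |μ.real (⋂ i, (T ^ t i) ⁻¹' A i) - ∏ i, μ.real (A i)| < ε

end Vale.Agent.Lib.P102
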