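import Vale.Agent.Lib.P102.CS

/-!
From symmetrised convergence to convergence of every triple correlation.
-/

set_option linter.unusedSectionVars false

namespace Vale.Agent.Lib.P102

open MeasureTheory Filter Topology

variable {Ω : Type*} [MeasurableSpace Ω] {μ : Measure Ω} [IsProbabilityMeasure μ]
  {S : ℤ → Ω → Ω}

section

variable (hS : Sys μ S)
include hS

/-- The pointwise inequality behind the extremality argument. -/
lemma key_ineq (x : ℤ × ℤ) (J : ℤ) (N : ℕ) {A B C : Set Ω} (hA : MeasurableSet A)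
    (hB : MeasurableSet B) (hC : MeasurableSet C) (p : ℝ) :
    (N : ℝ) ^ 2 * (c μ S x A B C - p) ^ 2 ≤
      (∑ k ∈ Finset.range N, ∑ j ∈ Finset.range N,
        cs μ S x (S (k * J) ⁻¹' A ∩ S (j * J) ⁻¹' A) (S (k * J) ⁻¹' B ∩ S (j * J) ⁻¹' B)
          (S (k * J) ⁻¹' C ∩ S (j * J) ⁻¹' C))
      - 2 * p * (N : ℝ) ^ 2 * cs μ S x A B C + 6 * p ^ 2 * (N : ℝ) ^ 2 := by
  have h1 := sq_c_le hS x J N hA hB hC
  have h2 := sq_c_le hS x J N hA hC hB
  have h3 := sq_c_le hS x J N hB hA hC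
  have h4 := sq_c_le hS x J N hB hC hA
  have h5 := sq_c_le hS x J N hC hA hB
  have h6 := sq_c_le hS x J N hC hB hA
  unfold cs
  simp only [Finset.sum_add_distrib]
  have hN : (0 : ℝ) ≤ (N : ℝ) ^ 2 := sq_nonneg _
  have g2 := mul_nonneg hN (sq_nonneg (c μ S x A C B - p))
  have g3 := mul_nonneg hN (sq_nonneg (c μ S x B A C - p))
  have g4 := mul_nonneg hN (sq_nonneg (c μ S x B C A - p))
  have g5 := mul_nonneg hN (sq_nonneg (c μ S x C A B - p))
  have g6 := mul_nonneg hN (sq_nonneg (c μ S x C B A - p))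
  nlinarith [h1, h2, h3, h4, h5, h6, g2, g3, g4, g5, g6]

theorem tendsto_c (hM : Mix μ S)
    (hZ : ∀ A B C : Set Ω, MeasurableSet A → MeasurableSet B → MeasurableSet C → Z μ S A B C)
    {A B C : Set Ω} (hA : MeasurableSet A) (hB : MeasurableSet B) (hC : MeasurableSet C) :
    Tendsto (fun x => c μ S x A B C) l (𝓝 (μ.real A * μ.real B * μ.real C)) := by
  set p := μ.real A * μ.real B * μ.real C with hp
  rw [Metric.tendsto_nhds]
  intro ε hε
  set η := ε ^ 2 / 13 with hη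
  have hηpos : 0 < η := by positivity
  -- choice of the step `J`
  have hprod : Tendsto (fun n : ℤ => r μ S n A A * r μ S n B B * r μ S n C C)
      (comap (fun n : ℤ => |n|) atTop)
      (𝓝 (μ.real A * μ.real A * (μ.real B * μ.real B) * (μ.real C * μ.real C))) :=
    ((hM A A hA hA).mul (hM B B hB hB)).mul (hM C C hC hC)
  have hlim : μ.real A * μ.real A * (μ.real B * μ.real B) * (μ.real C * μ.real C) = p ^ 2 := by
    rw [hp]; ring
  rw [hlim] at hprod
  have hev := hprod.eventually_lt_const (show p ^ 2 < p ^ 2 + η by linarith)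
  rw [eventually_comap] at hev
  obtain ⟨J₀, hJ₀⟩ := eventually_atTop.mp hev
  set J := max J₀ 1 with hJ
  have hJ1 : 1 ≤ J := le_max_right _ _
  -- choice of the number `N` of shifts
  obtain ⟨N, hN⟩ := exists_nat_gt (1 / η)
  have hNpos : (0 : ℝ) < N := lt_trans (by positivity) hN
  have hNη : 1 < η * N := by
    rw [div_lt_iff₀ hηpos] at hN; linarith
  -- the limiting value
  set V : ℝ := ∑ k ∈ Finset.range N, ∑ j ∈ Finset.range N,
    μ.real (S (k * J) ⁻¹' A ∩ S (j * J) ⁻¹' A) * μ.real (S (k * J) ⁻¹' B ∩ S (j * J) ⁻¹' B) *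
      μ.real (S (k * J) ⁻¹' C ∩ S (j * J) ⁻¹' C) with hV
  have hterm : ∀ k j : ℕ,
      μ.real (S (k * J) ⁻¹' A ∩ S (j * J) ⁻¹' A) * μ.real (S (k * J) ⁻¹' B ∩ S (j * J) ⁻¹' B) *
      μ.real (S (k * J) ⁻¹' C ∩ S (j * J) ⁻¹' C) ≤ (p ^ 2 + η) + if k = j then 1 else 0 := by
    intro k j
    by_cases hkj : k = j
    · rw [if_pos hkj]
      have a0 : 0 ≤ μ.real (S (k * J) ⁻¹' A ∩ S (j * J) ⁻¹' A) := measureReal_nonneg
      have a1 : μ.real (S (k * J) ⁻¹' A ∩ S (j * J) ⁻¹' A) ≤ 1 := measureReal_le_one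
      have b0 : 0 ≤ μ.real (S (k * J) ⁻¹' B ∩ S (j * J) ⁻¹' B) := measureReal_nonneg
      have b1 : μ.real (S (k * J) ⁻¹' B ∩ S (j * J) ⁻¹' B) ≤ 1 := measureReal_le_one
      have c0 : 0 ≤ μ.real (S (k * J) ⁻¹' C ∩ S (j * J) ⁻¹' C) := measureReal_nonneg
      have c1 : μ.real (S (k * J) ⁻¹' C ∩ S (j * J) ⁻¹' C) ≤ 1 := measureReal_le_one
      have ab : μ.real (S (k * J) ⁻¹' A ∩ S (j * J) ⁻¹' A) *
          μ.real (S (k * J) ⁻¹' B ∩ S (j * J) ⁻¹' B) ≤ 1 := mul_le_one₀ a1 b0 b1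
      have abc := mul_le_one₀ ab c0 c1
      have : 0 ≤ p ^ 2 := sq_nonneg p
      linarith
    · rw [if_neg hkj, add_zero, r_shift hS _ _ hA hA, r_shift hS _ _ hB hB, r_shift hS _ _ hC hC]
      refine (hJ₀ |(j : ℤ) * J - k * J| ?_ _ rfl).le
      have h1 : (j : ℤ) - k ≠ 0 := by
        intro h0
        apply hkj
        have : (j : ℤ) = k := by linarith
        exact_mod_cast this.symm
      have h2 : 1 ≤ |(j : ℤ) - k| := Int.one_le_abs h1
      have h3 : (j : ℤ) * J - k * J = ((j : ℤ) - k) * J := by ring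
      rw [h3, abs_mul, abs_of_pos (by linarith : (0 : ℤ) < J)]
      have : J₀ ≤ J := le_max_left _ _
      nlinarith
  have hVle : V ≤ (N : ℝ) ^ 2 * (p ^ 2 + η) + N := by
    calc V ≤ ∑ k ∈ Finset.range N, ∑ j ∈ Finset.range N,
          ((p ^ 2 + η) + if k = j then (1 : ℝ) else 0) :=
          Finset.sum_le_sum fun k _ => Finset.sum_le_sum fun j _ => hterm k j
      _ = (N : ℝ) ^ 2 * (p ^ 2 + η) + N := by
          have : ∀ k ∈ Finset.range N, ∑ j ∈ Finset.range N,
              ((p ^ 2 + η) + if k = j then (1 : ℝ) else 0) = N * (p ^ 2 + η) + 1 := by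
            intro k hk
            rw [Finset.sum_add_distrib, Finset.sum_const, Finset.card_range, nsmul_eq_mul,
              Finset.sum_ite_eq, if_pos hk]
          rw [Finset.sum_congr rfl this, Finset.sum_const, Finset.card_range, nsmul_eq_mul]
          ring
  -- the limit of the right-hand side of the key inequality
  have hR : Tendsto (fun x => (∑ k ∈ Finset.range N, ∑ j ∈ Finset.range N,
        cs μ S x (S (k * J) ⁻¹' A ∩ S (j * J) ⁻¹' A) (S (k * J) ⁻¹' B ∩ S (j * J) ⁻¹' B)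
          (S (k * J) ⁻¹' C ∩ S (j * J) ⁻¹' C))
      - 2 * p * (N : ℝ) ^ 2 * cs μ S x A B C + 6 * p ^ 2 * (N : ℝ) ^ 2) l
      (𝓝 (6 * V - 2 * p * (N : ℝ) ^ 2 * (6 * p) + 6 * p ^ 2 * (N : ℝ) ^ 2)) := by
    refine Tendsto.add (Tendsto.sub ?_ ?_) tendsto_const_nhds
    · rw [hV, Finset.mul_sum]
      refine tendsto_finsetSum _ fun k _ => ?_
      rw [Finset.mul_sum]
      refine tendsto_finsetSum _ fun j _ => ?_
      have := hZ _ _ _ ((hS.meas hA (k * J)).inter (hS.meas hA (j * J)))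
        ((hS.meas hB (k * J)).inter (hS.meas hB (j * J)))
        ((hS.meas hC (k * J)).inter (hS.meas hC (j * J)))
      unfold Z at this
      convert this using 2
      ring
    · refine Tendsto.const_mul _ ?_
      have := hZ A B C hA hB hC
      unfold Z at this
      convert this using 2
      rw [hp]; ring
  have hlt : 6 * V - 2 * p * (N : ℝ) ^ 2 * (6 * p) + 6 * p ^ 2 * (N : ℝ) ^ 2
      < 13 * η * (N : ℝ) ^ 2 := by
    have : (N : ℝ) < η * (N : ℝ) ^ 2 := by nlinarith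
    nlinarith
  filter_upwards [hR.eventually_lt_const hlt] with x hx
  have hk := key_ineq hS x J N hA hB hC p
  have hsq : (c μ S x A B C - p) ^ 2 < ε ^ 2 := by
    have h13 : 13 * η = ε ^ 2 := by rw [hη]; ring
    have hN2 : (0 : ℝ) < (N : ℝ) ^ 2 := by positivity
    have : (N : ℝ) ^ 2 * (c μ S x A B C - p) ^ 2 < (N : ℝ) ^ 2 * ε ^ 2 := by
      rw [← h13]; linarith
    exact lt_of_mul_lt_mul_left this hN2.le
  rw [Real.dist_eq]
  exact abs_lt_of_sq_lt_sq hsq hε.le

end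

end Vale.Agent.Lib.P102
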