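import Vale.Agent.Lib.P102.KColl

/-!
Symmetrised convergence of order `k` for arbitrary measurable sets.
-/

set_option linter.unusedSectionVars false

namespace Vale.Agent.Lib.P102

open MeasureTheory Filter Topology

variable {Ω : Type*} [MeasurableSpace Ω] {μ : Measure Ω} [IsProbabilityMeasure μ]
  {S : ℤ → Ω → Ω} {k : ℕ}

lemma real_eq_sum_inter {κ : Type*} [Fintype κ] {C : κ → Set Ω}
    (hC : ∀ j, MeasurableSet (C j)) (hd : Pairwise (fun a b => Disjoint (C a) (C b)))
    (hu : ⋃ j, C j = Set.univ) {A : Set Ω} (hA : MeasurableSet A) :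
    μ.real A = ∑ j : κ, μ.real (A ∩ C j) := by
  rw [← measureReal_biUnion_finset (s := Finset.univ)]
  · congr 1
    simp only [Finset.mem_univ, Set.iUnion_true]
    rw [← Set.inter_iUnion, hu, Set.inter_univ]
  · intro a _ b _ hab
    exact (hd hab).mono Set.inter_subset_right Set.inter_subset_right
  · intro j _
    exact hA.inter (hC j)

open Classical in
lemma prod_split {κ : Type*} [Fintype κ] {C : κ → Set Ω}
    (hC : ∀ j, MeasurableSet (C j)) (hd : Pairwise (fun a b => Disjoint (C a) (C b)))
    (hu : ⋃ j, C j = Set.univ) {A : Fin k → Set Ω} (hA : ∀ i, MeasurableSet (A i)) :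
    ∏ i, μ.real (A i)
      = ∑ m ∈ Finset.univ.filter (fun m : Fin k → κ => Function.Injective m),
          ∏ i, μ.real (A i ∩ C (m i))
        + ∑ m ∈ Finset.univ.filter (fun m : Fin k → κ => ¬ Function.Injective m),
          ∏ i, μ.real (A i ∩ C (m i)) := by
  rw [Finset.sum_filter_add_sum_filter_not]
  simp_rw [fun i => real_eq_sum_inter (μ := μ) hC hd hu (hA i)]
  rw [Finset.prod_univ_sum, Fintype.piFinset_univ]

section

variable (hS : Sys μ S)
include hS

open Classical in
lemma tendsto_inj_part (hD : Diagk μ S k) {κ : Type*} [Fintype κ] {C : κ → Set Ω}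
    (hC : ∀ j, MeasurableSet (C j)) (hd : Pairwise (fun a b => Disjoint (C a) (C b)))
    {A : Fin k → Set Ω} (hA : ∀ i, MeasurableSet (A i)) :
    Tendsto (fun t => ∑ m ∈ Finset.univ.filter (fun m : Fin k → κ => Function.Injective m),
        csk μ S t (fun i => A i ∩ C (m i))) (lk k)
      (𝓝 ((k.factorial : ℝ) * ∑ m ∈ Finset.univ.filter (fun m : Fin k → κ => Function.Injective m),
          ∏ i, μ.real (A i ∩ C (m i)))) := by
  rw [Finset.mul_sum]
  refine tendsto_finsetSum _ fun m hm => ?_
  have hinj : Function.Injective m := (Finset.mem_filter.mp hm).2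
  exact Zk_of_disjoint hS hD (fun i => (hA i).inter (hC _)) fun a b hab =>
    (hd (hinj.ne hab)).mono Set.inter_subset_right Set.inter_subset_right

lemma csk_univ (t : Fin k → ℤ) : csk μ S t (fun _ => Set.univ) = (k.factorial : ℝ) := by
  unfold csk ck
  simp [Finset.card_univ, Fintype.card_perm]

open Classical in
/-- the non-injective part of the product measure is small for fine partitions -/
lemma wnon_le (hM : Mix μ S) (hD : Diagk μ S k) {κ : Type*} [Fintype κ] {C : κ → Set Ω}
    (hC : ∀ j, MeasurableSet (C j)) (hd : Pairwise (fun a b => Disjoint (C a) (C b)))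
    (hu : ⋃ j, C j = Set.univ) :
    ∑ m ∈ Finset.univ.filter (fun m : Fin k → κ => ¬ Function.Injective m),
      ∏ i, μ.real (C (m i)) ≤ ((pairs k).card : ℝ) * ∑ j : κ, μ.real (C j) ^ 2 := by
  have hU : ∀ i : Fin k, MeasurableSet ((fun _ => Set.univ : Fin k → Set Ω) i) :=
    fun _ => MeasurableSet.univ
  have hsplit := prod_split (μ := μ) (k := k) hC hd hu hU
  simp only [Set.univ_inter, probReal_univ, Finset.prod_const_one] at hsplit
  have hinj := tendsto_inj_part hS hD hC hd hU
  simp only [Set.univ_inter] at hinj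
  have hexp : ∀ t : Fin k → ℤ,
      ∑ m ∈ Finset.univ.filter (fun m : Fin k → κ => ¬ Function.Injective m),
        csk μ S t (fun i => C (m i))
      = (k.factorial : ℝ) - ∑ m ∈ Finset.univ.filter (fun m : Fin k → κ => Function.Injective m),
        csk μ S t (fun i => C (m i)) := by
    intro t
    have := csk_expand hS t hU hC hd hu
    rw [csk_univ hS t, ← Finset.sum_filter_add_sum_filter_not Finset.univ
      (fun m : Fin k → κ => Function.Injective m)] at this
    simp only [Set.univ_inter] at this
    linarith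
  have hlim : Tendsto (fun t => ∑ m ∈ Finset.univ.filter
        (fun m : Fin k → κ => ¬ Function.Injective m), csk μ S t (fun i => C (m i))) (lk k)
      (𝓝 ((k.factorial : ℝ) * ∑ m ∈ Finset.univ.filter
        (fun m : Fin k → κ => ¬ Function.Injective m), ∏ i, μ.real (C (m i)))) := by
    simp_rw [hexp]
    convert tendsto_const_nhds.sub hinj using 2
    rw [eq_sub_iff_add_eq, ← mul_add, add_comm, ← hsplit, mul_one]
  have hle : ∀ t : Fin k → ℤ, ∑ m ∈ Finset.univ.filter
        (fun m : Fin k → κ => ¬ Function.Injective m), csk μ S t (fun i => C (m i))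
      ≤ (k.factorial : ℝ) * pairbound μ S C t := by
    intro t
    have := noninj_le hS t hC hd (fun _ => Set.univ)
    simpa only [Set.univ_inter] using this
  have h := le_of_tendsto_of_tendsto' hlim ((tendsto_pairbound hS hM hC).const_mul _) hle
  exact le_of_mul_le_mul_left h (by positivity)

open Classical in
/-- asymptotic bound of the defect in terms of the fineness of a partition -/
lemma Zk_bound (hM : Mix μ S) (hD : Diagk μ S k) {κ : Type*} [Fintype κ] {C : κ → Set Ω}
    (hC : ∀ j, MeasurableSet (C j)) (hd : Pairwise (fun a b => Disjoint (C a) (C b)))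
    (hu : ⋃ j, C j = Set.univ) {A : Fin k → Set Ω} (hA : ∀ i, MeasurableSet (A i))
    {δ : ℝ} (hδ : 0 < δ) :
    ∀ᶠ t in lk k, |csk μ S t A - (k.factorial : ℝ) * ∏ i, μ.real (A i)|
      ≤ (k.factorial : ℝ) * (((pairs k).card : ℝ) * ∑ j : κ, μ.real (C j) ^ 2) + δ := by
  have hinj := tendsto_inj_part hS hD hC hd hA
  have e1 := (Metric.tendsto_nhds.mp hinj) (δ / 2) (by linarith)
  have e2 := ((tendsto_pairbound (k := k) hS hM hC).const_mul (k.factorial : ℝ)).eventually_lt_const
    (show (k.factorial : ℝ) * (((pairs k).card : ℝ) * ∑ j : κ, μ.real (C j) ^ 2)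
      < (k.factorial : ℝ) * (((pairs k).card : ℝ) * ∑ j : κ, μ.real (C j) ^ 2) + δ / 2 by linarith)
  filter_upwards [e1, e2] with t h1 h2
  rw [Real.dist_eq, abs_lt] at h1
  have hexp := csk_expand hS t hA hC hd hu
  rw [← Finset.sum_filter_add_sum_filter_not Finset.univ
    (fun m : Fin k → κ => Function.Injective m)] at hexp
  have hR0 : 0 ≤ ∑ m ∈ Finset.univ.filter (fun m : Fin k → κ => ¬ Function.Injective m),
      csk μ S t (fun i => A i ∩ C (m i)) := Finset.sum_nonneg fun _ _ => csk_nonneg _ _
  have hR1 := noninj_le hS t hC hd A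
  have hsplit := prod_split (μ := μ) hC hd hu hA
  have ha0 : 0 ≤ ∑ m ∈ Finset.univ.filter (fun m : Fin k → κ => ¬ Function.Injective m),
      ∏ i, μ.real (A i ∩ C (m i)) :=
    Finset.sum_nonneg fun _ _ => Finset.prod_nonneg fun _ _ => measureReal_nonneg
  have ha1 : ∑ m ∈ Finset.univ.filter (fun m : Fin k → κ => ¬ Function.Injective m),
      ∏ i, μ.real (A i ∩ C (m i))
      ≤ ((pairs k).card : ℝ) * ∑ j : κ, μ.real (C j) ^ 2 := by
    refine le_trans (Finset.sum_le_sum fun m _ => ?_) (wnon_le hS hM hD hC hd hu)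
    exact Finset.prod_le_prod (fun _ _ => measureReal_nonneg)
      fun i _ => measureReal_mono Set.inter_subset_right
  have hk : (0 : ℝ) ≤ (k.factorial : ℝ) := by positivity
  have ha1' := mul_le_mul_of_nonneg_left ha1 hk
  have ha0' := mul_nonneg hk ha0
  rw [hexp, hsplit, mul_add, abs_le]
  constructor <;> linarith [h1.1, h1.2]

end

end Vale.Agent.Lib.P102
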