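import Vale.Agent.Lib.P102.KSym

/-!
Collision bounds and fine partitions.
-/

set_option linter.unusedSectionVars false

namespace Vale.Agent.Lib.P102

open MeasureTheory Filter Topology

variable {Ω : Type*} [MeasurableSpace Ω] {μ : Measure Ω} [IsProbabilityMeasure μ]
  {S : ℤ → Ω → Ω} {k : ℕ}

/-- the set of ordered pairs of indices -/
def pairs (k : ℕ) : Finset (Fin k × Fin k) := Finset.univ.filter (fun p => p.1 < p.2)

/-- the probability that two of the `k` points fall in the same cell, bounded by a sum -/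
noncomputable def pairbound {κ : Type*} [Fintype κ] (μ : Measure Ω) (S : ℤ → Ω → Ω)
    (C : κ → Set Ω) (t : Fin k → ℤ) : ℝ :=
  ∑ p ∈ pairs k, ∑ j : κ, μ.real (S (t p.1) ⁻¹' C j ∩ S (t p.2) ⁻¹' C j)

section

variable (hS : Sys μ S)
include hS

open Classical in
lemma coll_le {κ : Type*} [Fintype κ] (t : Fin k → ℤ) {C : κ → Set Ω}
    (hC : ∀ j, MeasurableSet (C j)) (hd : Pairwise (fun a b => Disjoint (C a) (C b))) :
    ∑ m ∈ Finset.univ.filter (fun m : Fin k → κ => ¬ Function.Injective m),
      ck μ S t (fun i => C (m i)) ≤ pairbound μ S C t := by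
  unfold ck pairbound
  rw [← measureReal_biUnion_finset, ← Finset.sum_product']
  · refine le_trans (measureReal_mono ?_ (measure_ne_top μ _)) (measureReal_biUnion_finset_le _ _)
    intro ω hω
    simp only [Set.mem_iUnion, Finset.mem_filter, Finset.mem_univ, true_and, exists_prop,
      Set.mem_iInter, Set.mem_preimage] at hω
    obtain ⟨m, hm, hω⟩ := hω
    rw [Function.Injective] at hm
    push Not at hm
    obtain ⟨a, b, hab, hne⟩ := hm
    simp only [Set.mem_iUnion, Finset.mem_product, Finset.mem_univ, and_true, exists_prop,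
      Set.mem_inter_iff, Set.mem_preimage, Prod.exists, pairs, Finset.mem_filter, true_and]
    rcases lt_or_gt_of_ne hne with h | h
    · exact ⟨a, b, m a, h, hω a, hab ▸ hω b⟩
    · exact ⟨b, a, m a, h, hab ▸ hω b, hω a⟩
  · intro m _ m' _ hne
    obtain ⟨i, hi⟩ := Function.ne_iff.mp hne
    rw [Function.onFun, Set.disjoint_left]
    intro ω h1 h2
    simp only [Set.mem_iInter, Set.mem_preimage] at h1 h2
    exact Set.disjoint_left.mp (hd hi) (h1 i) (h2 i)
  · intro m _
    exact meas_iInter hS t fun i => hC _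

lemma tendsto_pairbound (hM : Mix μ S) {κ : Type*} [Fintype κ] {C : κ → Set Ω}
    (hC : ∀ j, MeasurableSet (C j)) :
    Tendsto (fun t : Fin k → ℤ => pairbound μ S C t) (lk k)
      (𝓝 (((pairs k).card : ℝ) * ∑ j : κ, μ.real (C j) ^ 2)) := by
  unfold pairbound
  have : (((pairs k).card : ℝ) * ∑ j : κ, μ.real (C j) ^ 2)
      = ∑ _p ∈ pairs k, ∑ j : κ, μ.real (C j) * μ.real (C j) := by
    rw [Finset.sum_const, nsmul_eq_mul]
    simp_rw [sq]
  rw [this]
  refine tendsto_finsetSum _ fun p hp => tendsto_finsetSum _ fun j _ => ?_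
  simp_rw [r_shift hS _ _ (hC j) (hC j)]
  have hne : p.1 ≠ p.2 := ne_of_lt (Finset.mem_filter.mp hp).2
  exact (hM (C j) (C j) (hC j) (hC j)).comp (tendsto_abs_sub_lk hne)

open Classical in
/-- the non-injective part of the symmetrised expansion is controlled by collisions -/
lemma noninj_le {κ : Type*} [Fintype κ] (t : Fin k → ℤ) {C : κ → Set Ω}
    (hC : ∀ j, MeasurableSet (C j)) (hd : Pairwise (fun a b => Disjoint (C a) (C b)))
    (A : Fin k → Set Ω) :
    ∑ m ∈ Finset.univ.filter (fun m : Fin k → κ => ¬ Function.Injective m),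
      csk μ S t (fun i => A i ∩ C (m i)) ≤ (k.factorial : ℝ) * pairbound μ S C t := by
  calc ∑ m ∈ Finset.univ.filter (fun m : Fin k → κ => ¬ Function.Injective m),
        csk μ S t (fun i => A i ∩ C (m i))
      ≤ ∑ m ∈ Finset.univ.filter (fun m : Fin k → κ => ¬ Function.Injective m),
        csk μ S t (fun i => C (m i)) :=
        Finset.sum_le_sum fun m _ => csk_mono t fun i => Set.inter_subset_right
    _ = ∑ σ : Equiv.Perm (Fin k),
        ∑ m ∈ Finset.univ.filter (fun m : Fin k → κ => ¬ Function.Injective m),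
          ck μ S t (fun i => C (m (σ i))) := by
        unfold csk
        rw [Finset.sum_comm]
    _ = ∑ _σ : Equiv.Perm (Fin k),
        ∑ m ∈ Finset.univ.filter (fun m : Fin k → κ => ¬ Function.Injective m),
          ck μ S t (fun i => C (m i)) := by
        refine Finset.sum_congr rfl fun σ _ => ?_
        refine Finset.sum_equiv (σ.symm.arrowCongr (Equiv.refl κ)) ?_ ?_
        · intro m
          have e : ((Equiv.symm σ).arrowCongr (Equiv.refl κ)) m = m ∘ σ := by
            funext i; simp [Equiv.arrowCongr]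
          simp only [Finset.mem_filter, Finset.mem_univ, true_and]
          rw [e, Function.Injective.of_comp_iff' m σ.bijective]
        · intro m _
          simp [Equiv.arrowCongr]
    _ ≤ ∑ _σ : Equiv.Perm (Fin k), pairbound μ S C t :=
        Finset.sum_le_sum fun _ _ => coll_le hS t hC hd
    _ = (k.factorial : ℝ) * pairbound μ S C t := by
        rw [Finset.sum_const, Finset.card_univ, Fintype.card_perm, Fintype.card_fin, nsmul_eq_mul]

end

end Vale.Agent.Lib.P102
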