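import Vale.Agent.Lib.P102.CS

/-!
Correlations of order `k` of a measure preserving `ℤ`-action.
-/

set_option linter.unusedSectionVars false

namespace Vale.Agent.Lib.P102

open MeasureTheory Filter Topology

variable {Ω : Type*} [MeasurableSpace Ω]

/-- correlation of order `k` at times `t` -/
noncomputable def ck {k : ℕ} (μ : Measure Ω) (S : ℤ → Ω → Ω) (t : Fin k → ℤ)
    (A : Fin k → Set Ω) : ℝ :=
  μ.real (⋂ i, S (t i) ⁻¹' A i)

/-- the filter of time configurations all of whose gaps tend to infinity -/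
noncomputable def lk (k : ℕ) : Filter (Fin k → ℤ) :=
  ⨅ N : ℤ, 𝓟 {t | ∀ i j : Fin k, i < j → N ≤ t j - t i}

lemma lk_directed (k : ℕ) :
    Directed (· ≥ ·) (fun N : ℤ => 𝓟 {t : Fin k → ℤ | ∀ i j : Fin k, i < j → N ≤ t j - t i}) := by
  intro N₁ N₂
  refine ⟨max N₁ N₂, ?_, ?_⟩
  · simp only [ge_iff_le, le_principal_iff, mem_principal]
    intro t ht i j hij
    exact (le_max_left _ _).trans (ht i j hij)
  · simp only [ge_iff_le, le_principal_iff, mem_principal]
    intro t ht i j hij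
    exact (le_max_right _ _).trans (ht i j hij)

lemma eventually_lk {k : ℕ} {P : (Fin k → ℤ) → Prop} :
    (∀ᶠ t in lk k, P t) ↔ ∃ N : ℤ, ∀ t : Fin k → ℤ, (∀ i j : Fin k, i < j → N ≤ t j - t i) → P t := by
  unfold lk
  rw [Filter.Eventually, mem_iInf_of_directed (lk_directed k)]
  simp only [mem_principal]
  rfl

instance (k : ℕ) : (lk k).NeBot := by
  unfold lk
  apply iInf_neBot_of_directed (lk_directed k)
  intro N
  rw [principal_neBot_iff]
  refine ⟨fun i => (i : ℤ) * |N|, ?_⟩
  intro i j hij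
  have h1 : (1 : ℤ) ≤ (j : ℤ) - (i : ℤ) := by
    have : (i : ℕ) < (j : ℕ) := hij
    omega
  have h2 : 0 ≤ |N| := abs_nonneg N
  have h3 : N ≤ |N| := le_abs_self N
  nlinarith

lemma tendsto_abs_sub_lk {k : ℕ} {a b : Fin k} (hab : a ≠ b) :
    Tendsto (fun t : Fin k → ℤ => t b - t a) (lk k) (comap (fun n : ℤ => |n|) atTop) := by
  rw [tendsto_comap_iff, tendsto_atTop]
  intro N
  rw [eventually_lk]
  refine ⟨N, fun t ht => ?_⟩
  rcases lt_or_gt_of_ne hab with h | h
  · exact (ht a b h).trans (le_abs_self _)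
  · have := ht b a h
    simp only [Function.comp]
    rw [abs_sub_comm]
    exact this.trans (le_abs_self _)

variable {μ : Measure Ω} [IsProbabilityMeasure μ] {S : ℤ → Ω → Ω} {k : ℕ}

lemma ck_nonneg (t : Fin k → ℤ) (A : Fin k → Set Ω) : 0 ≤ ck μ S t A := measureReal_nonneg

lemma ck_mono (t : Fin k → ℤ) {A B : Fin k → Set Ω} (h : ∀ i, A i ⊆ B i) :
    ck μ S t A ≤ ck μ S t B :=
  measureReal_mono (Set.iInter_mono fun i => Set.preimage_mono (h i))

section

variable (hS : Sys μ S)
include hS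

lemma meas_iInter (t : Fin k → ℤ) {A : Fin k → Set Ω} (hA : ∀ i, MeasurableSet (A i)) :
    MeasurableSet (⋂ i, S (t i) ⁻¹' A i) :=
  MeasurableSet.iInter fun i => hS.meas (hA i) _

/-- invariance -/
lemma ck_shift (t : Fin k → ℤ) (n : ℤ) {A : Fin k → Set Ω} (hA : ∀ i, MeasurableSet (A i)) :
    ck μ S t (fun i => S n ⁻¹' A i) = ck μ S t A := by
  unfold ck
  rw [← hS.real_preimage (meas_iInter hS t hA) n, Set.preimage_iInter]
  congr 1
  refine Set.iInter_congr fun i => ?_
  rw [hS.add, hS.add, add_comm]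

/-- expansion along pairwise disjoint sets -/
lemma ck_expand {κ : Type*} [Fintype κ] [DecidableEq κ] (t : Fin k → ℤ) {A : Fin k → Set Ω}
    (hA : ∀ i, MeasurableSet (A i)) {Y : κ → Set Ω} (hY : ∀ j, MeasurableSet (Y j))
    (hd : Pairwise (fun a b => Disjoint (Y a) (Y b))) (J : Fin k → Finset κ) :
    ck μ S t (fun i => A i ∩ ⋃ j ∈ J i, Y j)
      = ∑ m ∈ Fintype.piFinset J, ck μ S t (fun i => A i ∩ Y (m i)) := by
  unfold ck
  rw [← measureReal_biUnion_finset]
  · congr 1
    ext ω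
    simp only [Set.mem_iInter, Set.mem_preimage, Set.mem_inter_iff, Set.mem_iUnion,
      Fintype.mem_piFinset, exists_prop]
    constructor
    · intro h
      choose m hm using fun i => (h i).2
      exact ⟨m, fun i => (hm i).1, fun i => ⟨(h i).1, (hm i).2⟩⟩
    · rintro ⟨m, hm1, hm2⟩ i
      exact ⟨(hm2 i).1, m i, hm1 i, (hm2 i).2⟩
  · intro m _ m' _ hne
    obtain ⟨i, hi⟩ := Function.ne_iff.mp hne
    rw [Function.onFun, Set.disjoint_left]
    intro ω h1 h2
    simp only [Set.mem_iInter, Set.mem_preimage, Set.mem_inter_iff] at h1 h2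
    exact Set.disjoint_left.mp (hd hi) (h1 i).2 (h2 i).2
  · intro m _
    exact meas_iInter hS t fun i => (hA i).inter (hY _)

/-- expansion along a finite measurable partition -/
lemma ck_expand_partition {κ : Type*} [Fintype κ] [DecidableEq κ] (t : Fin k → ℤ)
    {A : Fin k → Set Ω} (hA : ∀ i, MeasurableSet (A i)) {Y : κ → Set Ω}
    (hY : ∀ j, MeasurableSet (Y j)) (hd : Pairwise (fun a b => Disjoint (Y a) (Y b)))
    (hu : ⋃ j, Y j = Set.univ) :
    ck μ S t A = ∑ m : Fin k → κ, ck μ S t (fun i => A i ∩ Y (m i)) := by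
  have := ck_expand hS t hA hY hd (fun _ => Finset.univ)
  simp only [Finset.mem_univ, Set.iUnion_true, hu, Set.inter_univ, Fintype.piFinset_univ] at this
  exact this

/-- expansion of a diagonal correlation of a disjoint union -/
lemma ck_expand_diag (t : Fin k → ℤ) {X : Fin k → Set Ω}
    (hX : ∀ j, MeasurableSet (X j)) (hd : Pairwise (fun a b => Disjoint (X a) (X b)))
    (I : Finset (Fin k)) :
    ck μ S t (fun _ => ⋃ j ∈ I, X j)
      = ∑ φ ∈ Fintype.piFinset (fun _ : Fin k => I), ck μ S t (fun i => X (φ i)) := by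
  have := ck_expand hS t (A := fun _ => Set.univ) (fun _ => MeasurableSet.univ) hX hd (fun _ => I)
  simp only [Set.univ_inter] at this
  exact this

end

end Vale.Agent.Lib.P102
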