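import Vale.Agent.Lib.P102.KFine

/-!
From symmetrised convergence to convergence of all correlations of order `k`.
-/

set_option linter.unusedSectionVars false

namespace Vale.Agent.Lib.P102

open MeasureTheory Filter Topology

variable {Ω : Type*} [MeasurableSpace Ω] {μ : Measure Ω} [IsProbabilityMeasure μ]
  {S : ℤ → Ω → Ω} {k : ℕ}

section

variable (hS : Sys μ S)
include hS

lemma sq_ck_le (t : Fin k → ℤ) (J : ℤ) (N : ℕ) {X : Fin k → Set Ω}
    (hX : ∀ i, MeasurableSet (X i)) :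
    (N : ℝ) ^ 2 * ck μ S t X ^ 2 ≤ ∑ a ∈ Finset.range N, ∑ b ∈ Finset.range N,
      ck μ S t (fun i => S (a * J) ⁻¹' X i ∩ S (b * J) ⁻¹' X i) := by
  have h := sq_sum_le (μ := μ) N
    (fun a : ℕ => ⋂ i, S (t i) ⁻¹' (S (a * J) ⁻¹' X i))
    (fun a => meas_iInter hS t fun i => hS.meas (hX i) _)
  have e1 : ∀ a : ℕ, μ.real (⋂ i, S (t i) ⁻¹' (S (a * J) ⁻¹' X i)) = ck μ S t X := fun a =>
    ck_shift hS t (a * J) hX
  simp_rw [e1] at h
  rw [Finset.sum_const, Finset.card_range, nsmul_eq_mul, mul_pow] at h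
  refine h.trans (le_of_eq ?_)
  refine Finset.sum_congr rfl fun a _ => Finset.sum_congr rfl fun b _ => ?_
  unfold ck
  congr 1
  rw [← Set.iInter_inter_distrib]
  rfl

lemma key_ineq_k (t : Fin k → ℤ) (J : ℤ) (N : ℕ) {A : Fin k → Set Ω}
    (hA : ∀ i, MeasurableSet (A i)) (p : ℝ) :
    (N : ℝ) ^ 2 * (ck μ S t A - p) ^ 2 ≤
      (∑ a ∈ Finset.range N, ∑ b ∈ Finset.range N,
        csk μ S t (fun i => S (a * J) ⁻¹' A i ∩ S (b * J) ⁻¹' A i))
      - 2 * p * (N : ℝ) ^ 2 * csk μ S t A + (k.factorial : ℝ) * p ^ 2 * (N : ℝ) ^ 2 := by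
  have h1 : ∀ σ : Equiv.Perm (Fin k),
      (N : ℝ) ^ 2 * (ck μ S t (fun i => A (σ i)) - p) ^ 2 ≤
      (∑ a ∈ Finset.range N, ∑ b ∈ Finset.range N,
        ck μ S t (fun i => S (a * J) ⁻¹' A (σ i) ∩ S (b * J) ⁻¹' A (σ i)))
      - 2 * p * (N : ℝ) ^ 2 * ck μ S t (fun i => A (σ i)) + p ^ 2 * (N : ℝ) ^ 2 := by
    intro σ
    have := sq_ck_le hS t J N (fun i => hA (σ i))
    nlinarith [this]
  have h2 : (N : ℝ) ^ 2 * (ck μ S t A - p) ^ 2
      ≤ ∑ σ : Equiv.Perm (Fin k), (N : ℝ) ^ 2 * (ck μ S t (fun i => A (σ i)) - p) ^ 2 := by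
    have := Finset.single_le_sum
      (f := fun σ : Equiv.Perm (Fin k) => (N : ℝ) ^ 2 * (ck μ S t (fun i => A (σ i)) - p) ^ 2)
      (fun σ _ => mul_nonneg (sq_nonneg _) (sq_nonneg _)) (Finset.mem_univ (1 : Equiv.Perm (Fin k)))
    simpa using this
  refine h2.trans ((Finset.sum_le_sum fun σ _ => h1 σ).trans (le_of_eq ?_))
  have hswap : ∑ σ : Equiv.Perm (Fin k), ∑ a ∈ Finset.range N, ∑ b ∈ Finset.range N,
        ck μ S t (fun i => S (a * J) ⁻¹' A (σ i) ∩ S (b * J) ⁻¹' A (σ i))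
      = ∑ a ∈ Finset.range N, ∑ b ∈ Finset.range N,
        csk μ S t (fun i => S (a * J) ⁻¹' A i ∩ S (b * J) ⁻¹' A i) := by
    unfold csk
    rw [Finset.sum_comm]
    refine Finset.sum_congr rfl fun a _ => ?_
    rw [Finset.sum_comm]
  rw [Finset.sum_add_distrib, Finset.sum_sub_distrib, Finset.sum_const, Finset.card_univ,
    Fintype.card_perm, Fintype.card_fin, nsmul_eq_mul, ← Finset.mul_sum, hswap]
  unfold csk
  ring

theorem tendsto_ck (hM : Mix μ S)
    (hZ : ∀ A : Fin k → Set Ω, (∀ i, MeasurableSet (A i)) → Zk μ S A)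
    {A : Fin k → Set Ω} (hA : ∀ i, MeasurableSet (A i)) :
    Tendsto (fun t => ck μ S t A) (lk k) (𝓝 (∏ i, μ.real (A i))) := by
  set p := ∏ i, μ.real (A i) with hp
  have hkpos : (0 : ℝ) < (k.factorial : ℝ) := by positivity
  rw [Metric.tendsto_nhds]
  intro ε hε
  set η := ε ^ 2 / (2 * (k.factorial : ℝ)) with hη
  have hηpos : 0 < η := by positivity
  have hprod : Tendsto (fun n : ℤ => ∏ i, r μ S n (A i) (A i))
      (comap (fun n : ℤ => |n|) atTop) (𝓝 (∏ i, (μ.real (A i) * μ.real (A i)))) :=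
    tendsto_finsetProd _ fun i _ => hM (A i) (A i) (hA i) (hA i)
  have hlim : ∏ i, (μ.real (A i) * μ.real (A i)) = p ^ 2 := by
    rw [Finset.prod_mul_distrib, hp, sq]
  rw [hlim] at hprod
  have hev := hprod.eventually_lt_const (show p ^ 2 < p ^ 2 + η by linarith)
  rw [eventually_comap] at hev
  obtain ⟨J₀, hJ₀⟩ := eventually_atTop.mp hev
  set J := max J₀ 1 with hJ
  have hJ1 : 1 ≤ J := le_max_right _ _
  obtain ⟨N, hN⟩ := exists_nat_gt (1 / η)
  have hNpos : (0 : ℝ) < N := lt_trans (by positivity) hN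
  have hNη : 1 < η * N := by
    rw [div_lt_iff₀ hηpos] at hN; linarith
  set V : ℝ := ∑ a ∈ Finset.range N, ∑ b ∈ Finset.range N,
    ∏ i, μ.real (S (a * J) ⁻¹' A i ∩ S (b * J) ⁻¹' A i) with hV
  have hterm : ∀ a b : ℕ, ∏ i, μ.real (S (a * J) ⁻¹' A i ∩ S (b * J) ⁻¹' A i)
      ≤ (p ^ 2 + η) + if a = b then 1 else 0 := by
    intro a b
    by_cases hab : a = b
    · rw [if_pos hab]
      have : ∏ i, μ.real (S (a * J) ⁻¹' A i ∩ S (b * J) ⁻¹' A i) ≤ 1 :=
        Finset.prod_le_one (fun _ _ => measureReal_nonneg) (fun _ _ => measureReal_le_one)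
      have h0 : 0 ≤ p ^ 2 := sq_nonneg p
      linarith
    · rw [if_neg hab, add_zero]
      simp_rw [fun i => r_shift hS (a * J) (b * J) (hA i) (hA i)]
      refine (hJ₀ |(b : ℤ) * J - a * J| ?_ _ rfl).le
      have h1 : (b : ℤ) - a ≠ 0 := by
        intro h0
        apply hab
        have : (b : ℤ) = a := by linarith
        exact_mod_cast this.symm
      have h2 : 1 ≤ |(b : ℤ) - a| := Int.one_le_abs h1
      have h3 : (b : ℤ) * J - a * J = ((b : ℤ) - a) * J := by ring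
      rw [h3, abs_mul, abs_of_pos (by linarith : (0 : ℤ) < J)]
      have : J₀ ≤ J := le_max_left _ _
      nlinarith
  have hVle : V ≤ (N : ℝ) ^ 2 * (p ^ 2 + η) + N := by
    calc V ≤ ∑ a ∈ Finset.range N, ∑ b ∈ Finset.range N,
          ((p ^ 2 + η) + if a = b then (1 : ℝ) else 0) :=
          Finset.sum_le_sum fun a _ => Finset.sum_le_sum fun b _ => hterm a b
      _ = (N : ℝ) ^ 2 * (p ^ 2 + η) + N := by
          have : ∀ a ∈ Finset.range N, ∑ b ∈ Finset.range N,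
              ((p ^ 2 + η) + if a = b then (1 : ℝ) else 0) = N * (p ^ 2 + η) + 1 := by
            intro a ha
            rw [Finset.sum_add_distrib, Finset.sum_const, Finset.card_range, nsmul_eq_mul,
              Finset.sum_ite_eq, if_pos ha]
          rw [Finset.sum_congr rfl this, Finset.sum_const, Finset.card_range, nsmul_eq_mul]
          ring
  have hR : Tendsto (fun t => (∑ a ∈ Finset.range N, ∑ b ∈ Finset.range N,
        csk μ S t (fun i => S (a * J) ⁻¹' A i ∩ S (b * J) ⁻¹' A i))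
      - 2 * p * (N : ℝ) ^ 2 * csk μ S t A + (k.factorial : ℝ) * p ^ 2 * (N : ℝ) ^ 2) (lk k)
      (𝓝 ((k.factorial : ℝ) * V - 2 * p * (N : ℝ) ^ 2 * ((k.factorial : ℝ) * p)
        + (k.factorial : ℝ) * p ^ 2 * (N : ℝ) ^ 2)) := by
    refine Tendsto.add (Tendsto.sub ?_ ?_) tendsto_const_nhds
    · rw [hV, Finset.mul_sum]
      refine tendsto_finsetSum _ fun a _ => ?_
      rw [Finset.mul_sum]
      refine tendsto_finsetSum _ fun b _ => ?_
      exact hZ _ fun i => (hS.meas (hA i) _).inter (hS.meas (hA i) _)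
    · exact Tendsto.const_mul _ (hZ A hA)
  have hlt : (k.factorial : ℝ) * V - 2 * p * (N : ℝ) ^ 2 * ((k.factorial : ℝ) * p)
        + (k.factorial : ℝ) * p ^ 2 * (N : ℝ) ^ 2
      < 2 * (k.factorial : ℝ) * η * (N : ℝ) ^ 2 := by
    have h1 : (N : ℝ) < η * (N : ℝ) ^ 2 := by nlinarith
    have h2 : V - p ^ 2 * (N : ℝ) ^ 2 < 2 * η * (N : ℝ) ^ 2 := by nlinarith
    have h3 := mul_lt_mul_of_pos_left h2 hkpos
    nlinarith
  filter_upwards [hR.eventually_lt_const hlt] with t ht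
  have hk := key_ineq_k hS t J N hA p
  have hsq : (ck μ S t A - p) ^ 2 < ε ^ 2 := by
    have h13 : 2 * (k.factorial : ℝ) * η = ε ^ 2 := by rw [hη]; field_simp
    have hN2 : (0 : ℝ) < (N : ℝ) ^ 2 := by positivity
    have : (N : ℝ) ^ 2 * (ck μ S t A - p) ^ 2 < (N : ℝ) ^ 2 * ε ^ 2 := by
      rw [← h13]; linarith
    exact lt_of_mul_lt_mul_left this hN2.le
  rw [Real.dist_eq]
  exact abs_lt_of_sq_lt_sq hsq hε.le

end

end Vale.Agent.Lib.P102
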