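import Vale.Agent.Lib.P102.KAll

/-!
Fine partitions from mixing, and symmetrised convergence for all measurable families.
-/

set_option linter.unusedSectionVars false

namespace Vale.Agent.Lib.P102

open MeasureTheory Filter Topology

variable {Ω : Type*} [MeasurableSpace Ω] {μ : Measure Ω} [IsProbabilityMeasure μ]
  {S : ℤ → Ω → Ω} {k : ℕ}

section

variable (hS : Sys μ S)
include hS

lemma eventually_split (hM : Mix μ S) {D : Set Ω} (hDm : MeasurableSet D) {θ : ℝ}
    (h1 : μ.real D < θ) (h2 : 1 - μ.real D < θ) {E : Set Ω} (hE : MeasurableSet E) :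
    ∀ᶠ n : ℤ in atTop,
      μ.real (E ∩ S n ⁻¹' D) ≤ θ * μ.real E ∧ μ.real (E \ S n ⁻¹' D) ≤ θ * μ.real E := by
  by_cases h0 : μ.real E = 0
  · refine Eventually.of_forall fun n => ⟨?_, ?_⟩
    · rw [h0, mul_zero, ← h0]; exact measureReal_mono Set.inter_subset_left
    · rw [h0, mul_zero, ← h0]; exact measureReal_mono Set.sdiff_subset
  · have he : 0 < μ.real E := lt_of_le_of_ne measureReal_nonneg (Ne.symm h0)
    set η := min (θ - μ.real D) (θ - (1 - μ.real D)) * μ.real E with hη
    have hηpos : 0 < η := mul_pos (lt_min (by linarith) (by linarith)) he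
    have ht := (hM E D hE hDm).mono_left tendsto_abs_atTop_atTop.le_comap
    filter_upwards [(Metric.tendsto_nhds.mp ht) η hηpos] with n hn
    rw [Real.dist_eq, abs_lt] at hn
    have hη1 : η ≤ (θ - μ.real D) * μ.real E :=
      mul_le_mul_of_nonneg_right (min_le_left _ _) he.le
    have hη2 : η ≤ (θ - (1 - μ.real D)) * μ.real E :=
      mul_le_mul_of_nonneg_right (min_le_right _ _) he.le
    have hsum := measureReal_inter_add_sdiff (μ := μ) (s := E) (hS.meas hDm n)
    have hr : μ.real (E ∩ S n ⁻¹' D) = r μ S n E D := rfl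
    refine ⟨?_, ?_⟩
    · rw [hr]; nlinarith [hn.2]
    · rw [hr] at hsum
      nlinarith [hn.1]

/-- Mixing produces arbitrarily fine finite measurable partitions, as soon as there is a set of
measure strictly between `0` and `1`. -/
lemma exists_fine_partition (hM : Mix μ S) {D : Set Ω} (hDm : MeasurableSet D)
    (hD0 : 0 < μ.real D) (hD1 : μ.real D < 1) {δ : ℝ} (hδ : 0 < δ) :
    ∃ (κ : Type) (_ : Fintype κ) (C : κ → Set Ω), (∀ j, MeasurableSet (C j)) ∧
      Pairwise (fun a b => Disjoint (C a) (C b)) ∧ (⋃ j, C j = Set.univ) ∧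
      ∑ j : κ, μ.real (C j) ^ 2 ≤ δ := by
  set d := μ.real D with hd
  set θ := (1 + max d (1 - d)) / 2 with hθ
  have hmax : max d (1 - d) < 1 := max_lt (by linarith) (by linarith)
  have hθ1 : θ < 1 := by rw [hθ]; linarith
  have hdθ : d < θ := by
    have := le_max_left d (1 - d); rw [hθ]; linarith
  have hdθ' : 1 - d < θ := by
    have := le_max_right d (1 - d); rw [hθ]; linarith
  have hθ0 : 0 < θ := by linarith
  have claim : ∀ s : ℕ, ∃ (κ : Type) (_ : Fintype κ) (C : κ → Set Ω),
      (∀ j, MeasurableSet (C j)) ∧ Pairwise (fun a b => Disjoint (C a) (C b)) ∧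
      (⋃ j, C j = Set.univ) ∧ ∑ j : κ, μ.real (C j) ^ 2 ≤ θ ^ s := by
    intro s
    induction s with
    | zero =>
      refine ⟨Unit, inferInstance, fun _ => Set.univ, fun _ => MeasurableSet.univ, ?_, ?_, ?_⟩
      · intro a b hab; exact absurd (Subsingleton.elim a b) hab
      · exact Set.iUnion_const _
      · simp
    | succ s ih =>
      obtain ⟨κ, hκ, C, hC, hdis, hu, hρ⟩ := ih
      have hev : ∀ᶠ n : ℤ in atTop, ∀ j : κ,
          μ.real (C j ∩ S n ⁻¹' D) ≤ θ * μ.real (C j) ∧
          μ.real (C j \ S n ⁻¹' D) ≤ θ * μ.real (C j) :=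
        eventually_all.mpr fun j => eventually_split hS hM hDm hdθ hdθ' (hC j)
      obtain ⟨n, hn⟩ := hev.exists
      refine ⟨κ × Bool, inferInstance,
        fun q => if q.2 then C q.1 ∩ S n ⁻¹' D else C q.1 \ S n ⁻¹' D, ?_, ?_, ?_, ?_⟩
      · rintro ⟨j, b⟩
        cases b
        · exact (hC j).diff (hS.meas hDm n)
        · exact (hC j).inter (hS.meas hDm n)
      · rintro ⟨j, b⟩ ⟨j', b'⟩ hne
        by_cases hj : j = j'
        · subst hj
          cases b <;> cases b'
          · exact absurd rfl hne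
          · simp only [Bool.false_eq_true, if_false, if_true]
            exact Set.disjoint_left.mpr fun ω h1 h2 => h1.2 h2.2
          · simp only [Bool.false_eq_true, if_false, if_true]
            exact Set.disjoint_left.mpr fun ω h1 h2 => h2.2 h1.2
          · exact absurd rfl hne
        · have hb : ∀ (j : κ) (b : Bool),
              (if b then C j ∩ S n ⁻¹' D else C j \ S n ⁻¹' D) ⊆ C j := by
            intro j b
            cases b
            · simp only [Bool.false_eq_true, if_false]; exact Set.sdiff_subset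
            · simp only [if_true]; exact Set.inter_subset_left
          exact (hdis hj).mono (hb j b) (hb j' b')
      · apply Set.eq_univ_of_forall
        intro ω
        have : ω ∈ ⋃ j, C j := hu ▸ Set.mem_univ ω
        obtain ⟨j, hj⟩ := Set.mem_iUnion.mp this
        rw [Set.mem_iUnion]
        by_cases hω : ω ∈ S n ⁻¹' D
        · exact ⟨(j, true), by simpa using ⟨hj, hω⟩⟩
        · exact ⟨(j, false), by simpa using ⟨hj, hω⟩⟩
      · rw [Fintype.sum_prod_type]
        simp only [Fintype.sum_bool, if_true, Bool.false_eq_true, if_false]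
        calc ∑ j : κ, (μ.real (C j ∩ S n ⁻¹' D) ^ 2 + μ.real (C j \ S n ⁻¹' D) ^ 2)
            ≤ ∑ j : κ, θ * μ.real (C j) ^ 2 := by
              refine Finset.sum_le_sum fun j _ => ?_
              have p1 : 0 ≤ μ.real (C j ∩ S n ⁻¹' D) := measureReal_nonneg
              have p2 : 0 ≤ μ.real (C j \ S n ⁻¹' D) := measureReal_nonneg
              have hadd := measureReal_inter_add_sdiff (μ := μ) (s := C j) (hS.meas hDm n)
              have q1 : μ.real (C j ∩ S n ⁻¹' D) ^ 2
                  ≤ θ * μ.real (C j) * μ.real (C j ∩ S n ⁻¹' D) := by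
                rw [sq]; exact mul_le_mul_of_nonneg_right (hn j).1 p1
              have q2 : μ.real (C j \ S n ⁻¹' D) ^ 2
                  ≤ θ * μ.real (C j) * μ.real (C j \ S n ⁻¹' D) := by
                rw [sq]; exact mul_le_mul_of_nonneg_right (hn j).2 p2
              calc μ.real (C j ∩ S n ⁻¹' D) ^ 2 + μ.real (C j \ S n ⁻¹' D) ^ 2
                  ≤ θ * μ.real (C j) * (μ.real (C j ∩ S n ⁻¹' D) + μ.real (C j \ S n ⁻¹' D)) := by
                    linarith
                _ = θ * μ.real (C j) ^ 2 := by rw [hadd]; ring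
          _ = θ * ∑ j : κ, μ.real (C j) ^ 2 := by rw [Finset.mul_sum]
          _ ≤ θ * θ ^ s := mul_le_mul_of_nonneg_left hρ hθ0.le
          _ = θ ^ (s + 1) := by ring
  obtain ⟨s, hs⟩ := exists_pow_lt_of_lt_one hδ hθ1
  obtain ⟨κ, hκ, C, h1, h2, h3, h4⟩ := claim s
  exact ⟨κ, hκ, C, h1, h2, h3, h4.trans hs.le⟩

/-- Symmetrised convergence for all measurable families. -/
theorem Zk_all (hM : Mix μ S) (hD : Diagk μ S k) {D : Set Ω} (hDm : MeasurableSet D)
    (hD0 : 0 < μ.real D) (hD1 : μ.real D < 1) {A : Fin k → Set Ω}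
    (hA : ∀ i, MeasurableSet (A i)) : Zk μ S A := by
  unfold Zk
  rw [Metric.tendsto_nhds]
  intro ε hε
  set c₀ : ℝ := (k.factorial : ℝ) * ((pairs k).card : ℝ) + 1 with hc₀
  have hc₀pos : 0 < c₀ := by positivity
  obtain ⟨κ, hκ, C, hC, hd, hu, hρ⟩ :=
    exists_fine_partition hS hM hDm hD0 hD1 (show 0 < ε / (2 * c₀) by positivity)
  filter_upwards [Zk_bound hS hM hD hC hd hu hA (show 0 < ε / 4 by linarith)] with t ht
  rw [Real.dist_eq]
  refine lt_of_le_of_lt ht ?_
  have h1 : (k.factorial : ℝ) * (((pairs k).card : ℝ) * ∑ j : κ, μ.real (C j) ^ 2)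
      ≤ c₀ * (ε / (2 * c₀)) := by
    rw [← mul_assoc]
    have hnn : 0 ≤ ∑ j : κ, μ.real (C j) ^ 2 := Finset.sum_nonneg fun _ _ => sq_nonneg _
    have : (k.factorial : ℝ) * ((pairs k).card : ℝ) ≤ c₀ := by rw [hc₀]; linarith
    calc (k.factorial : ℝ) * ((pairs k).card : ℝ) * ∑ j : κ, μ.real (C j) ^ 2
        ≤ c₀ * ∑ j : κ, μ.real (C j) ^ 2 := mul_le_mul_of_nonneg_right this hnn
      _ ≤ c₀ * (ε / (2 * c₀)) := mul_le_mul_of_nonneg_left hρ hc₀pos.le
  have h2 : c₀ * (ε / (2 * c₀)) = ε / 2 := by field_simp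
  linarith

end

end Vale.Agent.Lib.P102
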