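import Vale.Agent.Lib.P102.Extremal

/-!
The single-set criterion for mixing of order three.
-/

set_option linter.unusedSectionVars false

namespace Vale.Agent.Lib.P102

open MeasureTheory Filter Topology

variable {Ω : Type*} [MeasurableSpace Ω] {μ : Measure Ω} [IsProbabilityMeasure μ]
  {S : ℤ → Ω → Ω}

section

variable (hS : Sys μ S)
include hS

lemma c_compl₁ (x : ℤ × ℤ) {A B C : Set Ω} (hA : MeasurableSet A) (hB : MeasurableSet B)
    (hC : MeasurableSet C) : c μ S x Aᶜ B C = c μ S x Set.univ B C - c μ S x A B C := by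
  have := c_union₁ hS x (disjoint_compl_right (a := A)) hA.compl hB hC
  rw [Set.union_compl_self] at this
  linarith

lemma c_compl₂ (x : ℤ × ℤ) {A B C : Set Ω} (hA : MeasurableSet A) (hB : MeasurableSet B)
    (hC : MeasurableSet C) : c μ S x A Bᶜ C = c μ S x A Set.univ C - c μ S x A B C := by
  have := c_union₂ hS x (disjoint_compl_right (a := B)) hA hB.compl hC
  rw [Set.union_compl_self] at this
  linarith

lemma c_compl₃ (x : ℤ × ℤ) {A B C : Set Ω} (hA : MeasurableSet A) (hB : MeasurableSet B)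
    (hC : MeasurableSet C) : c μ S x A B Cᶜ = c μ S x A B Set.univ - c μ S x A B C := by
  have := c_union₃ hS x (disjoint_compl_right (a := C)) hA hB hC.compl
  rw [Set.union_compl_self] at this
  linarith

lemma c_compl_diag (x : ℤ × ℤ) {A : Set Ω} (hA : MeasurableSet A) :
    c μ S x Aᶜ Aᶜ Aᶜ = 1 - 3 * μ.real A + r μ S x.1 A A + r μ S (x.1 + x.2) A A + r μ S x.2 A A
      - c μ S x A A A := by
  have hu : MeasurableSet (Set.univ : Set Ω) := MeasurableSet.univ
  rw [c_compl₁ hS x hA hA.compl hA.compl, c_compl₂ hS x hu hA hA.compl,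
    c_compl₂ hS x hA hA hA.compl, c_compl₃ hS x hu hu hA, c_compl₃ hS x hu hA hA,
    c_compl₃ hS x hA hu hA, c_compl₃ hS x hA hA hA]
  rw [c_univ₃, c_univ₃, c_univ₃, c_univ₃, c_univ₂, c_univ₂, c_univ₁ hS x hA hA,
    r_univ_right, r_univ_right, r_univ_left hS _ hA, r_univ_left hS _ hA]
  simp only [probReal_univ]
  ring

/-- The one-sided single-set hypothesis implies the two-sided one. -/
lemma diag_of_lower (hM : Mix μ S)
    (hL : ∀ A : Set Ω, MeasurableSet A → ∀ ε : ℝ, 0 < ε →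
      ∀ᶠ x in l, μ.real A ^ 3 - ε < c μ S x A A A) : Diag μ S := by
  intro A hA
  rw [Metric.tendsto_nhds]
  intro ε hε
  have e1 := (hM.lim₁ hA hA).eventually_lt_const
    (show μ.real A * μ.real A < μ.real A * μ.real A + ε / 6 by linarith)
  have e2 := (hM.lim₂ hA hA).eventually_lt_const
    (show μ.real A * μ.real A < μ.real A * μ.real A + ε / 6 by linarith)
  have e3 := (hM.lim₃ hA hA).eventually_lt_const
    (show μ.real A * μ.real A < μ.real A * μ.real A + ε / 6 by linarith)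
  filter_upwards [e1, e2, e3, hL A hA ε hε, hL Aᶜ hA.compl (ε / 2) (by linarith)]
    with x h1 h2 h3 h4 h5
  rw [c_compl_diag hS x hA, probReal_compl_eq_one_sub hA] at h5
  rw [Real.dist_eq, abs_lt]
  constructor
  · linarith
  · nlinarith

/-- The single-set criterion, in filter form. -/
theorem tendsto_c_of_lower (hM : Mix μ S)
    (hL : ∀ A : Set Ω, MeasurableSet A → ∀ ε : ℝ, 0 < ε →
      ∀ᶠ x in l, μ.real A ^ 3 - ε < c μ S x A A A)
    {A B C : Set Ω} (hA : MeasurableSet A) (hB : MeasurableSet B) (hC : MeasurableSet C) :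
    Tendsto (fun x => c μ S x A B C) l (𝓝 (μ.real A * μ.real B * μ.real C)) :=
  tendsto_c hS hM (fun _ _ _ h1 h2 h3 => Z_all hS hM (diag_of_lower hS hM hL) h1 h2 h3) hA hB hC

end

section translate

variable {T : Equiv.Perm Ω}

lemma sys_of_perm (hT : MeasurePreserving T μ μ) (hTs : Measurable T.symm) :
    Sys μ (fun n : ℤ => ⇑(T ^ n)) where
  mp := mp_zpow hT hTs
  add := preimage_zpow_add

lemma mix_of_mixing (h : Mixing μ T) : Mix μ (fun n : ℤ => ⇑(T ^ n)) := by
  intro A B hA hB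
  rw [Metric.tendsto_nhds]
  intro ε hε
  obtain ⟨N, hN⟩ := h A B hA hB ε hε
  rw [eventually_comap]
  filter_upwards [eventually_ge_atTop N] with b hb n hn
  rw [Real.dist_eq]
  exact hN n (hn ▸ hb)

lemma iInter_fin_three (t : Fin 3 → ℤ) (A : Fin 3 → Set Ω) :
    (⋂ i, (⇑(T ^ t i)) ⁻¹' A i)
      = (⇑(T ^ t 0)) ⁻¹' A 0 ∩ (⇑(T ^ t 1)) ⁻¹' A 1 ∩ (⇑(T ^ t 2)) ⁻¹' A 2 := by
  ext ω
  simp only [Set.mem_iInter, Set.mem_inter_iff, Fin.forall_fin_succ, Fin.forall_fin_zero_pi]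
  simp [and_assoc]

theorem order_three_of_lower (hT : MeasurePreserving T μ μ) (hTs : Measurable T.symm)
    (hmix : Mixing μ T)
    (hL : ∀ A : Set Ω, MeasurableSet A → ∀ ε : ℝ, 0 < ε → ∃ N : ℤ, ∀ n m : ℤ, N ≤ n → N ≤ m - n →
      μ.real A ^ 3 - ε < μ.real (A ∩ (T ^ n) ⁻¹' A ∩ (T ^ m) ⁻¹' A)) :
    MixingOfOrder μ T 3 := by
  have hS := sys_of_perm (μ := μ) hT hTs
  have hM := mix_of_mixing hmix
  have hL' : ∀ A : Set Ω, MeasurableSet A → ∀ ε : ℝ, 0 < ε →
      ∀ᶠ x in l, μ.real A ^ 3 - ε < c μ (fun n : ℤ => ⇑(T ^ n)) x A A A := by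
    intro A hA ε hε
    obtain ⟨N, hN⟩ := hL A hA ε hε
    have : ∀ᶠ x : ℤ × ℤ in l, N ≤ x.1 ∧ N ≤ x.2 :=
      (eventually_ge_atTop N).prod_mk (eventually_ge_atTop N)
    filter_upwards [this] with x hx
    exact hN x.1 (x.1 + x.2) hx.1 (by simpa using hx.2)
  intro A hA ε hε
  have ht := tendsto_c_of_lower hS hM hL' (hA 0) (hA 1) (hA 2)
  have hev := (Metric.tendsto_nhds.mp ht) ε hε
  unfold l at hev
  rw [prod_atTop_atTop_eq, eventually_atTop] at hev
  obtain ⟨a, ha⟩ := hev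
  refine ⟨max a.1 a.2, fun t ht => ?_⟩
  have h01 := ht 0 1 (by decide)
  have h12 := ht 1 2 (by decide)
  have hx := ha (t 1 - t 0, t 2 - t 1)
    ⟨(le_max_left _ _).trans h01, (le_max_right _ _).trans h12⟩
  rw [Real.dist_eq] at hx
  rw [iInter_fin_three, Fin.prod_univ_three]
  convert hx using 3
  unfold c
  rw [← hS.real_preimage (((hA 0).inter (hS.meas (hA 1) _)).inter (hS.meas (hA 2) _)) (t 0)]
  simp only [Set.preimage_inter]
  rw [hS.add, hS.add]
  congr 4 <;> ring_nf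

theorem lower_of_order_three (h3 : MixingOfOrder μ T 3) :
    ∀ A : Set Ω, MeasurableSet A → ∀ ε : ℝ, 0 < ε → ∃ N : ℤ, ∀ n m : ℤ, N ≤ n → N ≤ m - n →
      μ.real A ^ 3 - ε < μ.real (A ∩ (T ^ n) ⁻¹' A ∩ (T ^ m) ⁻¹' A) := by
  intro A hA ε hε
  obtain ⟨N, hN⟩ := h3 (fun _ => A) (fun _ => hA) ε hε
  refine ⟨max N 0, fun n m hn hm => ?_⟩
  have hn1 : N ≤ n := (le_max_left _ _).trans hn
  have hn0 : 0 ≤ n := (le_max_right _ _).trans hn
  have hm1 : N ≤ m - n := (le_max_left _ _).trans hm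
  have := hN ![0, n, m] (by
    intro i j hij
    fin_cases i <;> fin_cases j <;> simp at hij ⊢ <;> omega)
  rw [iInter_fin_three, Fin.prod_univ_three] at this
  simp only [Matrix.cons_val_zero, Matrix.cons_val_one, Matrix.cons_val, zpow_zero,
    Equiv.Perm.coe_one, Set.preimage_id_eq, id_eq] at this
  rw [abs_lt] at this
  have h := this.1
  nlinarith [h]

end translate

end Vale.Agent.Lib.P102
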