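import Vale.Agent.Lib.P102.KExtremal
import Vale.Agent.Lib.P102.Main

/-!
The single-set criterion for mixing of order `k`.
-/

set_option linter.unusedSectionVars false

namespace Vale.Agent.Lib.P102

open MeasureTheory Filter Topology

variable {Ω : Type*} [MeasurableSpace Ω] {μ : Measure Ω} [IsProbabilityMeasure μ]
  {S : ℤ → Ω → Ω} {k : ℕ}

section

variable (hS : Sys μ S)
include hS

/-- the case of a trivial measure algebra -/
lemma ck_trivial (h01 : ∀ D : Set Ω, MeasurableSet D → ¬ (0 < μ.real D ∧ μ.real D < 1))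
    (t : Fin k → ℤ) {A : Fin k → Set Ω} (hA : ∀ i, MeasurableSet (A i)) :
    ck μ S t A = ∏ i, μ.real (A i) := by
  by_cases h : ∃ i, μ.real (A i) = 0
  · obtain ⟨i, hi⟩ := h
    rw [Finset.prod_eq_zero (Finset.mem_univ i) hi]
    refine le_antisymm ?_ (ck_nonneg _ _)
    calc ck μ S t A ≤ μ.real (S (t i) ⁻¹' A i) := measureReal_mono (Set.iInter_subset _ i)
      _ = 0 := by rw [hS.real_preimage (hA i), hi]
  · push Not at h
    have h1 : ∀ i, μ.real (A i) = 1 := by
      intro i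
      by_contra hne
      exact h01 (A i) (hA i) ⟨lt_of_le_of_ne measureReal_nonneg (h i).symm,
        lt_of_le_of_ne measureReal_le_one hne⟩
    rw [Finset.prod_eq_one fun i _ => h1 i]
    have h2 : ∀ i, S (t i) ⁻¹' A i ∈ ae μ := by
      intro i
      rw [mem_ae_iff_prob_eq_one (hS.meas (hA i) _)]
      have := hS.real_preimage (hA i) (t i)
      rw [h1 i] at this
      have h3 : (μ (S (t i) ⁻¹' A i)).toReal = 1 := this
      rw [← ENNReal.toReal_one] at h3
      exact (ENNReal.toReal_eq_toReal_iff' (measure_ne_top _ _) ENNReal.one_ne_top).mp h3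
    have h3 : (⋂ i, S (t i) ⁻¹' A i) ∈ ae μ := (Filter.iInter_mem).mpr h2
    rw [mem_ae_iff_prob_eq_one (meas_iInter hS t hA)] at h3
    unfold ck
    rw [measureReal_def, h3, ENNReal.toReal_one]

theorem tendsto_ck_of_diag (hM : Mix μ S) (hD : Diagk μ S k)
    {A : Fin k → Set Ω} (hA : ∀ i, MeasurableSet (A i)) :
    Tendsto (fun t => ck μ S t A) (lk k) (𝓝 (∏ i, μ.real (A i))) := by
  by_cases h01 : ∀ D : Set Ω, MeasurableSet D → ¬ (0 < μ.real D ∧ μ.real D < 1)
  · simp_rw [ck_trivial hS h01 _ hA]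
    exact tendsto_const_nhds
  · push Not at h01
    obtain ⟨D, hDm, hD0, hD1⟩ := h01
    exact tendsto_ck hS hM (fun B hB => Zk_all hS hM hD hDm hD0 hD1 hB) hA

end

section translate

variable {T : Equiv.Perm Ω}

theorem order_k_of_diag (hT : MeasurePreserving T μ μ) (hTs : Measurable T.symm)
    (hmix : Mixing μ T)
    (hL : ∀ A : Set Ω, MeasurableSet A → ∀ ε : ℝ, 0 < ε → ∃ N : ℤ, ∀ t : Fin k → ℤ,
      (∀ i j : Fin k, i < j → N ≤ t j - t i) →
        |μ.real (⋂ i, (T ^ t i) ⁻¹' A) - μ.real A ^ k| < ε) :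
    MixingOfOrder μ T k := by
  have hS := sys_of_perm (μ := μ) hT hTs
  have hM := mix_of_mixing hmix
  have hD : Diagk μ (fun n : ℤ => ⇑(T ^ n)) k := by
    intro A hA
    rw [Metric.tendsto_nhds]
    intro ε hε
    rw [eventually_lk]
    obtain ⟨N, hN⟩ := hL A hA ε hε
    refine ⟨N, fun t ht => ?_⟩
    rw [Real.dist_eq]
    exact hN t ht
  intro A hA ε hε
  have ht := tendsto_ck_of_diag hS hM hD hA
  have hev := (Metric.tendsto_nhds.mp ht) ε hε
  rw [eventually_lk] at hev
  obtain ⟨N, hN⟩ := hev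
  refine ⟨N, fun t ht => ?_⟩
  have := hN t ht
  rw [Real.dist_eq] at this
  exact this

theorem diag_of_order_k (h : MixingOfOrder μ T k) :
    ∀ A : Set Ω, MeasurableSet A → ∀ ε : ℝ, 0 < ε → ∃ N : ℤ, ∀ t : Fin k → ℤ,
      (∀ i j : Fin k, i < j → N ≤ t j - t i) →
        |μ.real (⋂ i, (T ^ t i) ⁻¹' A) - μ.real A ^ k| < ε := by
  intro A hA ε hε
  obtain ⟨N, hN⟩ := h (fun _ => A) (fun _ => hA) ε hε
  refine ⟨N, fun t ht => ?_⟩
  have := hN t ht
  rwa [Finset.prod_const, Finset.card_univ, Fintype.card_fin] at this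

end translate

end Vale.Agent.Lib.P102
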