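import Vale.Agent.Lib.P102.KCore

/-!
Polarisation: from diagonal correlations to symmetrised correlations of disjoint sets.
-/

set_option linter.unusedSectionVars false

namespace Vale.Agent.Lib.P102

open MeasureTheory Filter Topology

/-- inclusion-exclusion over the subsets containing the image of `φ` -/
lemma sum_sign_image {k : ℕ} (φ : Fin k → Fin k) :
    ∑ I : Finset (Fin k), (-1 : ℝ) ^ (k + I.card) * (if ∀ a, φ a ∈ I then 1 else 0)
      = if Function.Surjective φ then 1 else 0 := by
  classical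
  have h := Finset.prod_add (fun _ : Fin k => (-1 : ℝ))
    (fun i : Fin k => if i ∈ Finset.univ.image φ then (0 : ℝ) else 1) Finset.univ
  have hl : ∏ i : Fin k, ((-1 : ℝ) + if i ∈ Finset.univ.image φ then (0 : ℝ) else 1)
      = if Function.Surjective φ then (-1) ^ k else 0 := by
    by_cases hs : Function.Surjective φ
    · rw [if_pos hs]
      have : ∀ i : Fin k, ((-1 : ℝ) + if i ∈ Finset.univ.image φ then (0 : ℝ) else 1) = -1 := by
        intro i
        obtain ⟨a, rfl⟩ := hs i
        simp
      rw [Finset.prod_congr rfl fun i _ => this i, Finset.prod_const, Finset.card_univ,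
        Fintype.card_fin]
    · rw [if_neg hs]
      have : ∃ i, ∀ a, φ a ≠ i := by
        by_contra hcon
        push Not at hcon
        exact hs hcon
      obtain ⟨i, hi⟩ := this
      apply Finset.prod_eq_zero (Finset.mem_univ i)
      have : i ∉ Finset.univ.image φ := by
        simp only [Finset.mem_image, Finset.mem_univ, true_and, not_exists]
        exact hi
      simp [this]
  rw [hl] at h
  have hr : ∀ I ∈ (Finset.univ : Finset (Fin k)).powerset,
      (∏ _i ∈ I, (-1 : ℝ)) * ∏ i ∈ Finset.univ \ I,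
        (if i ∈ Finset.univ.image φ then (0 : ℝ) else 1)
      = (-1 : ℝ) ^ I.card * (if ∀ a, φ a ∈ I then 1 else 0) := by
    intro I _
    rw [Finset.prod_const]
    congr 1
    by_cases hI : ∀ a, φ a ∈ I
    · rw [if_pos hI]
      apply Finset.prod_eq_one
      intro i hi
      rw [if_neg]
      intro hmem
      obtain ⟨a, -, rfl⟩ := Finset.mem_image.mp hmem
      exact (Finset.mem_sdiff.mp hi).2 (hI a)
    · rw [if_neg hI]
      push Not at hI
      obtain ⟨a, ha⟩ := hI
      apply Finset.prod_eq_zero (i := φ a)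
      · simp [ha]
      · simp
  rw [Finset.sum_congr rfl hr, Finset.powerset_univ] at h
  have : ∀ I : Finset (Fin k), (-1 : ℝ) ^ (k + I.card) * (if ∀ a, φ a ∈ I then 1 else 0)
      = (-1) ^ k * ((-1 : ℝ) ^ I.card * (if ∀ a, φ a ∈ I then 1 else 0)) := by
    intro I; rw [pow_add]; ring
  simp_rw [this]
  rw [← Finset.mul_sum, ← h]
  by_cases hs : Function.Surjective φ
  · simp only [if_pos hs]
    rw [← mul_pow]; simp
  · simp [if_neg hs]

/-- The combinatorial polarisation identity. -/
lemma polar_identity {k : ℕ} (F : (Fin k → Fin k) → ℝ) :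
    ∑ I : Finset (Fin k), (-1 : ℝ) ^ (k + I.card) *
        ∑ φ ∈ Fintype.piFinset (fun _ : Fin k => I), F φ
      = ∑ σ : Equiv.Perm (Fin k), F σ := by
  classical
  have h1 : ∀ I : Finset (Fin k), ∑ φ ∈ Fintype.piFinset (fun _ : Fin k => I), F φ
      = ∑ φ : Fin k → Fin k, (if ∀ a, φ a ∈ I then 1 else 0) * F φ := by
    intro I
    rw [← Finset.sum_filter_add_sum_filter_not Finset.univ (fun φ : Fin k → Fin k => ∀ a, φ a ∈ I)]
    have z : ∑ φ ∈ Finset.univ.filter (fun φ : Fin k → Fin k => ¬ ∀ a, φ a ∈ I),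
        (if ∀ a, φ a ∈ I then (1 : ℝ) else 0) * F φ = 0 := by
      apply Finset.sum_eq_zero
      intro φ hφ
      rw [if_neg (Finset.mem_filter.mp hφ).2, zero_mul]
    rw [z, add_zero]
    apply Finset.sum_congr
    · ext φ; simp [Fintype.mem_piFinset]
    · intro φ hφ
      rw [if_pos (Finset.mem_filter.mp hφ).2, one_mul]
  simp_rw [h1, Finset.mul_sum]
  rw [Finset.sum_comm]
  have h2 : ∀ φ : Fin k → Fin k, ∑ I : Finset (Fin k),
      (-1 : ℝ) ^ (k + I.card) * ((if ∀ a, φ a ∈ I then 1 else 0) * F φ)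
      = (if Function.Surjective φ then 1 else 0) * F φ := by
    intro φ
    rw [← sum_sign_image φ, Finset.sum_mul]
    exact Finset.sum_congr rfl fun I _ => by ring
  simp_rw [h2]
  -- sum over surjective maps equals the sum over permutations
  have h3 : ∑ φ : Fin k → Fin k, (if Function.Surjective φ then (1 : ℝ) else 0) * F φ
      = ∑ φ ∈ Finset.univ.filter (fun φ : Fin k → Fin k => Function.Bijective φ), F φ := by
    rw [Finset.sum_filter]
    apply Finset.sum_congr rfl
    intro φ _
    by_cases hs : Function.Surjective φ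
    · rw [if_pos hs, if_pos ⟨Finite.injective_iff_surjective.mpr hs, hs⟩, one_mul]
    · rw [if_neg hs, if_neg (fun hb => hs hb.2), zero_mul]
  rw [h3]
  symm
  apply Finset.sum_bij (fun (σ : Equiv.Perm (Fin k)) _ => (σ : Fin k → Fin k))
  · intro σ _
    exact Finset.mem_filter.mpr ⟨Finset.mem_univ _, σ.bijective⟩
  · intro σ _ τ _ h
    exact DFunLike.coe_injective h
  · intro φ hφ
    exact ⟨Equiv.ofBijective φ (Finset.mem_filter.mp hφ).2, Finset.mem_univ _, rfl⟩
  · intro σ _
    rfl

/-- numerical polarisation -/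
lemma polar_numeric {k : ℕ} (x : Fin k → ℝ) :
    ∑ I : Finset (Fin k), (-1 : ℝ) ^ (k + I.card) * (∑ i ∈ I, x i) ^ k
      = (k.factorial : ℝ) * ∏ i, x i := by
  classical
  have h1 : ∀ I : Finset (Fin k), (∑ i ∈ I, x i) ^ k
      = ∑ φ ∈ Fintype.piFinset (fun _ : Fin k => I), ∏ a, x (φ a) := by
    intro I
    rw [← Finset.prod_univ_sum (fun _ : Fin k => I) (fun _ i => x i)]
    simp
  simp_rw [h1]
  rw [polar_identity (fun φ => ∏ a, x (φ a))]
  have h2 : ∀ σ : Equiv.Perm (Fin k), ∏ a, x (σ a) = ∏ a, x a := fun σ =>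
    Equiv.prod_comp σ x
  simp_rw [h2]
  rw [Finset.sum_const, Finset.card_univ, Fintype.card_perm, Fintype.card_fin, nsmul_eq_mul]

end Vale.Agent.Lib.P102
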