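import Vale.Agent.Lib.P102.KPolar

/-!
Symmetrised correlations of order `k`.
-/

set_option linter.unusedSectionVars false

namespace Vale.Agent.Lib.P102

open MeasureTheory Filter Topology

variable {Ω : Type*} [MeasurableSpace Ω]

/-- symmetrised correlation of order `k` -/
noncomputable def csk {k : ℕ} (μ : Measure Ω) (S : ℤ → Ω → Ω) (t : Fin k → ℤ)
    (A : Fin k → Set Ω) : ℝ :=
  ∑ σ : Equiv.Perm (Fin k), ck μ S t (fun i => A (σ i))

/-- convergence of the symmetrised correlation -/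
def Zk {k : ℕ} (μ : Measure Ω) (S : ℤ → Ω → Ω) (A : Fin k → Set Ω) : Prop :=
  Tendsto (fun t => csk μ S t A) (lk k) (𝓝 ((k.factorial : ℝ) * ∏ i, μ.real (A i)))

/-- convergence of the single-set correlations of order `k` -/
def Diagk (μ : Measure Ω) (S : ℤ → Ω → Ω) (k : ℕ) : Prop :=
  ∀ A : Set Ω, MeasurableSet A →
    Tendsto (fun t : Fin k → ℤ => ck μ S t (fun _ => A)) (lk k) (𝓝 (μ.real A ^ k))

variable {μ : Measure Ω} [IsProbabilityMeasure μ] {S : ℤ → Ω → Ω} {k : ℕ}

lemma csk_nonneg (t : Fin k → ℤ) (A : Fin k → Set Ω) : 0 ≤ csk μ S t A :=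
  Finset.sum_nonneg fun _ _ => ck_nonneg _ _

lemma csk_mono (t : Fin k → ℤ) {A B : Fin k → Set Ω} (h : ∀ i, A i ⊆ B i) :
    csk μ S t A ≤ csk μ S t B :=
  Finset.sum_le_sum fun σ _ => ck_mono t fun i => h (σ i)

section

variable (hS : Sys μ S)
include hS

lemma csk_polar (t : Fin k → ℤ) {X : Fin k → Set Ω}
    (hX : ∀ j, MeasurableSet (X j)) (hd : Pairwise (fun a b => Disjoint (X a) (X b))) :
    csk μ S t X
      = ∑ I : Finset (Fin k), (-1 : ℝ) ^ (k + I.card) * ck μ S t (fun _ => ⋃ j ∈ I, X j) := by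
  simp_rw [ck_expand_diag hS t hX hd]
  rw [polar_identity (fun φ => ck μ S t (fun i => X (φ i)))]
  rfl

lemma Zk_of_disjoint (hD : Diagk μ S k) {X : Fin k → Set Ω}
    (hX : ∀ j, MeasurableSet (X j)) (hd : Pairwise (fun a b => Disjoint (X a) (X b))) :
    Zk μ S X := by
  unfold Zk
  simp_rw [csk_polar hS _ hX hd]
  rw [← polar_numeric]
  refine tendsto_finsetSum _ fun I _ => Tendsto.const_mul _ ?_
  have := hD (⋃ j ∈ I, X j) (Finset.measurableSet_biUnion I fun j _ => hX j)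
  rwa [measureReal_biUnion_finset (fun a _ b _ hab => hd hab) (fun j _ => hX j)] at this

/-- expansion of the symmetrised correlation along a partition -/
lemma csk_expand {κ : Type*} [Fintype κ] [DecidableEq κ] (t : Fin k → ℤ)
    {A : Fin k → Set Ω} (hA : ∀ i, MeasurableSet (A i)) {Y : κ → Set Ω}
    (hY : ∀ j, MeasurableSet (Y j)) (hd : Pairwise (fun a b => Disjoint (Y a) (Y b)))
    (hu : ⋃ j, Y j = Set.univ) :
    csk μ S t A = ∑ m : Fin k → κ, csk μ S t (fun i => A i ∩ Y (m i)) := by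
  unfold csk
  rw [Finset.sum_comm]
  refine Finset.sum_congr rfl fun σ _ => ?_
  rw [ck_expand_partition hS t (fun i => hA (σ i)) hY hd hu]
  exact Fintype.sum_equiv (σ.arrowCongr (Equiv.refl κ)) _ _ fun m => by
    simp [Equiv.arrowCongr]

end

end Vale.Agent.Lib.P102
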