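import Vale.Agent.Lib.P102.Core

/-!
Symmetrised triple correlations.
-/

set_option linter.unusedSectionVars false

namespace Vale.Agent.Lib.P102

open MeasureTheory Filter Topology

variable {Ω : Type*} [MeasurableSpace Ω]

/-- symmetrised triple correlation -/
noncomputable def cs (μ : Measure Ω) (S : ℤ → Ω → Ω) (x : ℤ × ℤ) (A B C : Set Ω) : ℝ :=
  c μ S x A B C + c μ S x A C B + c μ S x B A C + c μ S x B C A + c μ S x C A B + c μ S x C B A

/-- convergence of the symmetrised triple correlation to the product value -/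
def Z (μ : Measure Ω) (S : ℤ → Ω → Ω) (A B C : Set Ω) : Prop :=
  Tendsto (fun x => cs μ S x A B C) l (𝓝 (6 * μ.real A * μ.real B * μ.real C))

/-- mixing, in filter form -/
def Mix (μ : Measure Ω) (S : ℤ → Ω → Ω) : Prop :=
  ∀ A B : Set Ω, MeasurableSet A → MeasurableSet B →
    Tendsto (fun n : ℤ => r μ S n A B) (comap (fun n : ℤ => |n|) atTop)
      (𝓝 (μ.real A * μ.real B))

variable {μ : Measure Ω} [IsProbabilityMeasure μ] {S : ℤ → Ω → Ω}

lemma cs_swap₁₂ (x : ℤ × ℤ) (A B C : Set Ω) : cs μ S x B A C = cs μ S x A B C := by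
  unfold cs; ring

lemma cs_swap₂₃ (x : ℤ × ℤ) (A B C : Set Ω) : cs μ S x A C B = cs μ S x A B C := by
  unfold cs; ring

lemma cs_swap₁₃ (x : ℤ × ℤ) (A B C : Set Ω) : cs μ S x C B A = cs μ S x A B C := by
  unfold cs; ring

lemma Z.swap₁₂ {A B C : Set Ω} (h : Z μ S A B C) : Z μ S B A C := by
  unfold Z at *
  simp_rw [cs_swap₁₂ _ A B C]
  convert h using 2; ring

lemma Z.swap₂₃ {A B C : Set Ω} (h : Z μ S A B C) : Z μ S A C B := by
  unfold Z at *
  simp_rw [cs_swap₂₃ _ A B C]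
  convert h using 2; ring

lemma Z.swap₁₃ {A B C : Set Ω} (h : Z μ S A B C) : Z μ S C B A := by
  unfold Z at *
  simp_rw [cs_swap₁₃ _ A B C]
  convert h using 2; ring

section

variable (hS : Sys μ S)
include hS

lemma cs_union₁ (x : ℤ × ℤ) {A₁ A₂ B C : Set Ω} (hd : Disjoint A₁ A₂)
    (h2 : MeasurableSet A₂) (hB : MeasurableSet B) (hC : MeasurableSet C) :
    cs μ S x (A₁ ∪ A₂) B C = cs μ S x A₁ B C + cs μ S x A₂ B C := by
  unfold cs
  rw [c_union₁ hS x hd h2 hB hC, c_union₁ hS x hd h2 hC hB, c_union₂ hS x hd hB h2 hC,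
    c_union₃ hS x hd hB hC h2, c_union₂ hS x hd hC h2 hB, c_union₃ hS x hd hC hB h2]
  ring

lemma Z.union₁ {A₁ A₂ B C : Set Ω} (hd : Disjoint A₁ A₂)
    (h2 : MeasurableSet A₂) (hB : MeasurableSet B) (hC : MeasurableSet C)
    (z1 : Z μ S A₁ B C) (z2 : Z μ S A₂ B C) : Z μ S (A₁ ∪ A₂) B C := by
  unfold Z at *
  simp_rw [cs_union₁ hS _ hd h2 hB hC]
  convert z1.add z2 using 2
  rw [measureReal_union hd h2]; ring

/-- splitting the first argument along a measurable set -/
lemma Z.split₁ {A B C : Set Ω} (G : Set Ω) (hG : MeasurableSet G) (hA : MeasurableSet A)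
    (hB : MeasurableSet B) (hC : MeasurableSet C)
    (z1 : Z μ S (A ∩ G) B C) (z2 : Z μ S (A \ G) B C) : Z μ S A B C := by
  have := Z.union₁ hS (A₁ := A ∩ G) (A₂ := A \ G)
    (Set.disjoint_left.mpr fun ω h1 h2 => h2.2 h1.2) (hA.diff hG) hB hC z1 z2
  rwa [Set.inter_union_sdiff] at this

lemma cs_polar (x : ℤ × ℤ) {A B C : Set Ω} (hAB : Disjoint A B) (hAC : Disjoint A C)
    (hBC : Disjoint B C) (hA : MeasurableSet A) (hB : MeasurableSet B) (hC : MeasurableSet C) :
    cs μ S x A B C = c μ S x (A ∪ B ∪ C) (A ∪ B ∪ C) (A ∪ B ∪ C)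
      - c μ S x (A ∪ B) (A ∪ B) (A ∪ B) - c μ S x (A ∪ C) (A ∪ C) (A ∪ C)
      - c μ S x (B ∪ C) (B ∪ C) (B ∪ C)
      + c μ S x A A A + c μ S x B B B + c μ S x C C C := by
  unfold cs
  have mAB := hA.union hB
  have mAC := hA.union hC
  have mBC := hB.union hC
  have mABC := mAB.union hC
  have dABC : Disjoint (A ∪ B) C := Set.disjoint_union_left.mpr ⟨hAC, hBC⟩
  simp only [c_union₁ hS, c_union₂ hS, c_union₃ hS, hAB, hAC, hBC, hA, hB, hC,
    mAB, mAC, mBC, mABC, dABC]
  ring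

lemma cs_nonneg (x : ℤ × ℤ) (A B C : Set Ω) : 0 ≤ cs μ S x A B C := by
  unfold cs
  have h1 := c_nonneg hS x A B C
  have h2 := c_nonneg hS x A C B
  have h3 := c_nonneg hS x B A C
  have h4 := c_nonneg hS x B C A
  have h5 := c_nonneg hS x C A B
  have h6 := c_nonneg hS x C B A
  linarith

lemma Z_of_null {A B C : Set Ω} (hA : MeasurableSet A) (h0 : μ.real A = 0) : Z μ S A B C := by
  unfold Z
  have : ∀ x, cs μ S x A B C = 0 := by
    intro x
    unfold cs
    have h1 := c_nonneg hS x A B C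
    have h2 := c_nonneg hS x A C B
    have h3 := c_nonneg hS x B A C
    have h4 := c_nonneg hS x B C A
    have h5 := c_nonneg hS x C A B
    have h6 := c_nonneg hS x C B A
    have g1 := c_le₁ hS x A B C
    have g2 := c_le₁ hS x A C B
    have g3 := c_le₂ hS x B hA C
    have g4 := c_le₃ hS x B C hA
    have g5 := c_le₂ hS x C hA B
    have g6 := c_le₃ hS x C B hA
    linarith
  simp_rw [this, h0]
  simp

lemma atTop_le_comap_abs : (atTop : Filter ℤ) ≤ comap (fun n : ℤ => |n|) atTop :=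
  tendsto_abs_atTop_atTop.le_comap

omit hS in
lemma Mix.lim₁ (hM : Mix μ S) {A B : Set Ω} (hA : MeasurableSet A) (hB : MeasurableSet B) :
    Tendsto (fun x : ℤ × ℤ => r μ S x.1 A B) l (𝓝 (μ.real A * μ.real B)) :=
  ((hM A B hA hB).mono_left tendsto_abs_atTop_atTop.le_comap).comp tendsto_fst

omit hS in
lemma Mix.lim₂ (hM : Mix μ S) {A B : Set Ω} (hA : MeasurableSet A) (hB : MeasurableSet B) :
    Tendsto (fun x : ℤ × ℤ => r μ S (x.1 + x.2) A B) l (𝓝 (μ.real A * μ.real B)) :=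
  ((hM A B hA hB).mono_left tendsto_abs_atTop_atTop.le_comap).comp
    (tendsto_fst.atTop_add_atTop tendsto_snd)

omit hS in
lemma Mix.lim₃ (hM : Mix μ S) {A B : Set Ω} (hA : MeasurableSet A) (hB : MeasurableSet B) :
    Tendsto (fun x : ℤ × ℤ => r μ S x.2 A B) l (𝓝 (μ.real A * μ.real B)) :=
  ((hM A B hA hB).mono_left tendsto_abs_atTop_atTop.le_comap).comp tendsto_snd

/-- The diagonal hypothesis: single-set triple correlations converge. -/
def Diag (μ : Measure Ω) (S : ℤ → Ω → Ω) : Prop :=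
  ∀ A : Set Ω, MeasurableSet A → Tendsto (fun x => c μ S x A A A) l (𝓝 (μ.real A ^ 3))

lemma Z_of_disjoint (hD : Diag μ S) {A B C : Set Ω} (hAB : Disjoint A B) (hAC : Disjoint A C)
    (hBC : Disjoint B C) (hA : MeasurableSet A) (hB : MeasurableSet B) (hC : MeasurableSet C) :
    Z μ S A B C := by
  unfold Z
  simp_rw [cs_polar hS _ hAB hAC hBC hA hB hC]
  have mAB := hA.union hB
  have mAC := hA.union hC
  have mBC := hB.union hC
  have mABC := mAB.union hC
  have dABC : Disjoint (A ∪ B) C := Set.disjoint_union_left.mpr ⟨hAC, hBC⟩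
  convert ((((((hD _ mABC).sub (hD _ mAB)).sub (hD _ mAC)).sub (hD _ mBC)).add
    (hD _ hA)).add (hD _ hB)).add (hD _ hC) using 2
  rw [measureReal_union dABC hC, measureReal_union hAB hB, measureReal_union hAC hC,
    measureReal_union hBC hC]
  ring

/-- asymptotic bound for the defect of `cs G G F` -/
def Bd (μ : Measure Ω) (S : ℤ → Ω → Ω) (G F : Set Ω) (κ : ℝ) : Prop :=
  ∀ δ : ℝ, 0 < δ → ∀ᶠ x in l, |cs μ S x G G F - 6 * μ.real G * μ.real G * μ.real F| ≤ κ + δ

lemma Bd_base (hM : Mix μ S) {G F : Set Ω} (hG : MeasurableSet G) (hF : MeasurableSet F) :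
    Bd μ S G F (6 * μ.real G ^ 2) := by
  intro δ hδ
  have e1 := (hM.lim₁ hG hG).eventually_lt_const
    (show μ.real G * μ.real G < μ.real G * μ.real G + δ / 6 by linarith)
  have e2 := (hM.lim₂ hG hG).eventually_lt_const
    (show μ.real G * μ.real G < μ.real G * μ.real G + δ / 6 by linarith)
  have e3 := (hM.lim₃ hG hG).eventually_lt_const
    (show μ.real G * μ.real G < μ.real G * μ.real G + δ / 6 by linarith)
  filter_upwards [e1, e2, e3] with x h1 h2 h3
  have b1 : c μ S x G G F ≤ r μ S x.1 G G := by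
    rw [← c_univ₃]; exact c_mono subset_rfl subset_rfl (Set.subset_univ _)
  have b2 : c μ S x G F G ≤ r μ S (x.1 + x.2) G G := by
    rw [← c_univ₂]; exact c_mono subset_rfl (Set.subset_univ _) subset_rfl
  have b3 : c μ S x F G G ≤ r μ S x.2 G G := by
    rw [← c_univ₁ hS x hG hG]; exact c_mono (Set.subset_univ _) subset_rfl subset_rfl
  have hnn := cs_nonneg hS x G G F
  have hcs : cs μ S x G G F = 2 * (c μ S x G G F + c μ S x G F G + c μ S x F G G) := by
    unfold cs; ring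
  have hg0 : 0 ≤ μ.real G := measureReal_nonneg
  have hf0 : 0 ≤ μ.real F := measureReal_nonneg
  have hf1 : μ.real F ≤ 1 := measureReal_le_one
  have hgg : 0 ≤ μ.real G * μ.real G := mul_nonneg hg0 hg0
  have hggf : μ.real G * μ.real G * μ.real F ≤ μ.real G * μ.real G := by nlinarith
  have hggf0 : 0 ≤ μ.real G * μ.real G * μ.real F := mul_nonneg hgg hf0
  rw [abs_le]
  constructor <;> nlinarith

lemma exists_split (hM : Mix μ S) {D : Set Ω} (hDm : MeasurableSet D) {θ : ℝ}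
    (h1 : μ.real D < θ) (h2 : 1 - μ.real D < θ) {E : Set Ω} (hE : MeasurableSet E) :
    ∃ n : ℤ, μ.real (E ∩ S n ⁻¹' D) ≤ θ * μ.real E ∧ μ.real (E \ S n ⁻¹' D) ≤ θ * μ.real E := by
  by_cases h0 : μ.real E = 0
  · refine ⟨0, ?_, ?_⟩
    · rw [h0, mul_zero, ← h0]; exact measureReal_mono Set.inter_subset_left
    · rw [h0, mul_zero, ← h0]; exact measureReal_mono Set.sdiff_subset
  · have he : 0 < μ.real E := lt_of_le_of_ne measureReal_nonneg (Ne.symm h0)
    set η := min (θ - μ.real D) (θ - (1 - μ.real D)) * μ.real E with hη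
    have hηpos : 0 < η := mul_pos (lt_min (by linarith) (by linarith)) he
    have ht := (hM E D hE hDm).mono_left tendsto_abs_atTop_atTop.le_comap
    have hev := (Metric.tendsto_nhds.mp ht) η hηpos
    obtain ⟨n, hn⟩ := hev.exists
    rw [Real.dist_eq, abs_lt] at hn
    have hη1 : η ≤ (θ - μ.real D) * μ.real E :=
      mul_le_mul_of_nonneg_right (min_le_left _ _) he.le
    have hη2 : η ≤ (θ - (1 - μ.real D)) * μ.real E :=
      mul_le_mul_of_nonneg_right (min_le_right _ _) he.le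
    have hsum := measureReal_inter_add_sdiff (μ := μ) (s := E) (hS.meas hDm n)
    refine ⟨n, ?_, ?_⟩
    · have : μ.real (E ∩ S n ⁻¹' D) = r μ S n E D := rfl
      rw [this]; nlinarith [hn.2]
    · have : μ.real (E ∩ S n ⁻¹' D) = r μ S n E D := rfl
      rw [this] at hsum
      nlinarith [hn.1]

lemma cs_union_diag (x : ℤ × ℤ) {G₁ G₂ F : Set Ω} (hd : Disjoint G₁ G₂)
    (h1 : MeasurableSet G₁) (h2 : MeasurableSet G₂) (hF : MeasurableSet F) :
    cs μ S x (G₁ ∪ G₂) (G₁ ∪ G₂) F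
      = cs μ S x G₁ G₁ F + cs μ S x G₂ G₂ F + 2 * cs μ S x G₁ G₂ F := by
  rw [cs_union₁ hS x hd h2 (h1.union h2) hF, cs_swap₁₂ x (G₁ ∪ G₂) G₁ F,
    cs_swap₁₂ x (G₁ ∪ G₂) G₂ F, cs_union₁ hS x hd h2 h1 hF, cs_union₁ hS x hd h2 h2 hF,
    cs_swap₁₂ x G₁ G₂ F]
  ring

lemma Bd_step (hD : Diag μ S) {G₁ G₂ F : Set Ω} (hd : Disjoint G₁ G₂) (hd1 : Disjoint G₁ F)
    (hd2 : Disjoint G₂ F) (h1 : MeasurableSet G₁) (h2 : MeasurableSet G₂) (hF : MeasurableSet F)
    {κ₁ κ₂ : ℝ} (b1 : Bd μ S G₁ F κ₁) (b2 : Bd μ S G₂ F κ₂) : Bd μ S (G₁ ∪ G₂) F (κ₁ + κ₂) := by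
  intro δ hδ
  have hz := Z_of_disjoint hS hD hd hd1 hd2 h1 h2 hF
  have e3 := (Metric.tendsto_nhds.mp hz) (δ / 6) (by linarith)
  filter_upwards [b1 (δ / 3) (by linarith), b2 (δ / 3) (by linarith), e3] with x g1 g2 g3
  rw [Real.dist_eq] at g3
  rw [cs_union_diag hS x hd h1 h2 hF, measureReal_union hd h2]
  have : cs μ S x G₁ G₁ F + cs μ S x G₂ G₂ F + 2 * cs μ S x G₁ G₂ F
      - 6 * (μ.real G₁ + μ.real G₂) * (μ.real G₁ + μ.real G₂) * μ.real F
      = (cs μ S x G₁ G₁ F - 6 * μ.real G₁ * μ.real G₁ * μ.real F)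
        + (cs μ S x G₂ G₂ F - 6 * μ.real G₂ * μ.real G₂ * μ.real F)
        + 2 * (cs μ S x G₁ G₂ F - 6 * μ.real G₁ * μ.real G₂ * μ.real F) := by ring
  rw [this]
  rw [abs_le] at g1 g2 ⊢
  rw [abs_lt] at g3
  constructor <;> linarith [g1.1, g1.2, g2.1, g2.2, g3.1, g3.2]

/-- `Z G G F` for disjoint `G`, `F`. -/
lemma Z_diag_disjoint (hM : Mix μ S) (hD : Diag μ S) {G F : Set Ω} (hGF : Disjoint G F)
    (hG : MeasurableSet G) (hF : MeasurableSet F) : Z μ S G G F := by
  by_cases hg : μ.real G = 0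
  · exact Z_of_null hS hG hg
  by_cases hf : μ.real F = 0
  · exact (Z_of_null hS hF hf).swap₁₃
  have hg0 : 0 < μ.real G := lt_of_le_of_ne measureReal_nonneg (Ne.symm hg)
  have hf0 : 0 < μ.real F := lt_of_le_of_ne measureReal_nonneg (Ne.symm hf)
  have hsum : μ.real G + μ.real F ≤ 1 := by
    rw [← measureReal_union hGF hF]; exact measureReal_le_one
  set d := μ.real G with hd
  set θ := (1 + max d (1 - d)) / 2 with hθ
  have hmax : max d (1 - d) < 1 := max_lt (by linarith) (by linarith)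
  have hθ1 : θ < 1 := by rw [hθ]; linarith
  have hdθ : d < θ := by
    have := le_max_left d (1 - d); rw [hθ]; linarith
  have hdθ' : 1 - d < θ := by
    have := le_max_right d (1 - d); rw [hθ]; linarith
  have hθ0 : 0 < θ := by linarith
  have claim : ∀ k : ℕ, ∀ E : Set Ω, MeasurableSet E → Disjoint E F →
      Bd μ S E F (6 * θ ^ k * μ.real E ^ 2) := by
    intro k
    induction k with
    | zero =>
      intro E hE _
      simpa using Bd_base hS hM hE hF
    | succ k ih =>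
      intro E hE hEF
      obtain ⟨n, hn1, hn2⟩ := exists_split hS hM hG hdθ hdθ' hE
      set E₁ := E ∩ S n ⁻¹' G with hE₁
      set E₂ := E \ S n ⁻¹' G with hE₂
      have m1 : MeasurableSet E₁ := hE.inter (hS.meas hG n)
      have m2 : MeasurableSet E₂ := hE.diff (hS.meas hG n)
      have d12 : Disjoint E₁ E₂ := Set.disjoint_left.mpr fun ω h1 h2 => h2.2 h1.2
      have d1 : Disjoint E₁ F := hEF.mono_left Set.inter_subset_left
      have d2 : Disjoint E₂ F := hEF.mono_left Set.sdiff_subset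
      have hb := Bd_step hS hD d12 d1 d2 m1 m2 hF (ih E₁ m1 d1) (ih E₂ m2 d2)
      have hu : E₁ ∪ E₂ = E := Set.inter_union_sdiff E _
      rw [hu] at hb
      have hadd : μ.real E₁ + μ.real E₂ = μ.real E := by
        rw [← measureReal_union d12 m2, hu]
      intro δ hδ
      filter_upwards [hb δ hδ] with x hx
      refine hx.trans ?_
      have p1 : 0 ≤ μ.real E₁ := measureReal_nonneg
      have p2 : 0 ≤ μ.real E₂ := measureReal_nonneg
      have hk : 0 ≤ 6 * θ ^ k := by positivity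
      have hsq : μ.real E₁ ^ 2 + μ.real E₂ ^ 2 ≤ θ * μ.real E ^ 2 := by
        have q1 : μ.real E₁ ^ 2 ≤ θ * μ.real E * μ.real E₁ := by
          rw [sq]; exact mul_le_mul_of_nonneg_right hn1 p1
        have q2 : μ.real E₂ ^ 2 ≤ θ * μ.real E * μ.real E₂ := by
          rw [sq]; exact mul_le_mul_of_nonneg_right hn2 p2
        calc μ.real E₁ ^ 2 + μ.real E₂ ^ 2 ≤ θ * μ.real E * (μ.real E₁ + μ.real E₂) := by
              linarith
          _ = θ * μ.real E ^ 2 := by rw [hadd]; ring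
      have := mul_le_mul_of_nonneg_left hsq hk
      have e : 6 * θ ^ (k + 1) * μ.real E ^ 2 = 6 * θ ^ k * (θ * μ.real E ^ 2) := by ring
      rw [e]
      linarith
  unfold Z
  rw [Metric.tendsto_nhds]
  intro ε hε
  obtain ⟨k, hk⟩ := exists_pow_lt_of_lt_one (show 0 < ε / 12 by linarith) hθ1
  filter_upwards [claim k G hG hGF (ε / 4) (by linarith)] with x hx
  rw [Real.dist_eq]
  refine lt_of_le_of_lt hx ?_
  have hd1 : d ^ 2 ≤ 1 := by
    have : d ≤ 1 := by linarith
    nlinarith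
  have hk0 : 0 ≤ θ ^ k := by positivity
  have : 6 * θ ^ k * d ^ 2 ≤ 6 * θ ^ k := by nlinarith
  linarith

lemma Z_diag (hD : Diag μ S) {A : Set Ω} (hA : MeasurableSet A) : Z μ S A A A := by
  unfold Z
  have : ∀ x, cs μ S x A A A = 6 * c μ S x A A A := by intro x; unfold cs; ring
  simp_rw [this]
  convert (hD A hA).const_mul 6 using 2
  ring

/-- `Z E₁ E₂ B` for disjoint `E₁`, `E₂` and arbitrary `B`. -/
lemma Z_disjoint_pair (hM : Mix μ S) (hD : Diag μ S) {E₁ E₂ B : Set Ω} (h12 : Disjoint E₁ E₂)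
    (h1 : MeasurableSet E₁) (h2 : MeasurableSet E₂) (hB : MeasurableSet B) : Z μ S E₁ E₂ B := by
  have h12' : ∀ ω, ω ∈ E₁ → ω ∉ E₂ := fun ω hω => Set.disjoint_left.mp h12 hω
  apply Z.swap₁₃
  apply Z.split₁ hS E₁ h1 hB h2 h1
  · -- `Z (B ∩ E₁) E₂ E₁`
    apply Z.swap₁₃
    apply Z.split₁ hS B hB h1 h2 (hB.inter h1)
    · rw [Set.inter_comm E₁ B]
      apply Z.swap₂₃
      apply Z_diag_disjoint hS hM hD _ (hB.inter h1) h2
      rw [Set.disjoint_left]
      intro ω g1 g2
      exact h12' ω g1.2 g2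
    · apply Z_of_disjoint hS hD _ _ _ (h1.diff hB) h2 (hB.inter h1)
      · rw [Set.disjoint_left]
        intro ω g1 g2
        exact h12' ω g1.1 g2
      · rw [Set.disjoint_left]
        intro ω g1 g2
        exact g1.2 g2.1
      · rw [Set.disjoint_left]
        intro ω g1 g2
        exact h12' ω g2.2 g1
  · -- `Z (B \ E₁) E₂ E₁`
    apply Z.split₁ hS E₂ h2 (hB.diff h1) h2 h1
    · -- `Z ((B \ E₁) ∩ E₂) E₂ E₁`
      apply Z.swap₁₂
      apply Z.split₁ hS (B \ E₁) (hB.diff h1) h2 ((hB.diff h1).inter h2) h1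
      · rw [Set.inter_comm E₂ (B \ E₁)]
        apply Z_diag_disjoint hS hM hD _ ((hB.diff h1).inter h2) h1
        rw [Set.disjoint_left]
        intro ω g1 g2
        exact g1.1.2 g2
      · apply Z_of_disjoint hS hD _ _ _ (h2.diff (hB.diff h1)) ((hB.diff h1).inter h2) h1
        · rw [Set.disjoint_left]
          intro ω g1 g2
          exact g1.2 g2.1
        · rw [Set.disjoint_left]
          intro ω g1 g2
          exact h12' ω g2 g1.1
        · rw [Set.disjoint_left]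
          intro ω g1 g2
          exact g1.1.2 g2
    · -- `Z ((B \ E₁) \ E₂) E₂ E₁`
      apply Z_of_disjoint hS hD _ _ _ ((hB.diff h1).diff h2) h2 h1
      · rw [Set.disjoint_left]
        intro ω g1 g2
        exact g1.2 g2
      · rw [Set.disjoint_left]
        intro ω g1 g2
        exact g1.1.2 g2
      · rw [Set.disjoint_left]
        intro ω g1 g2
        exact h12' ω g2 g1

/-- `Z E E B` for arbitrary `E`, `B`. -/
lemma Z_diag_pair (hM : Mix μ S) (hD : Diag μ S) {E B : Set Ω}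
    (hE : MeasurableSet E) (hB : MeasurableSet B) : Z μ S E E B := by
  apply Z.swap₁₃
  apply Z.split₁ hS E hE hB hE hE
  · -- `Z (B ∩ E) E E`, write `G = B ∩ E`, `H = E \ B`
    have mG := hB.inter hE
    have mH := hE.diff hB
    have dGH : Disjoint (B ∩ E) (E \ B) := by
      rw [Set.disjoint_left]
      intro ω g1 g2
      exact g2.2 g1.1
    have zGGG : Z μ S (B ∩ E) (B ∩ E) (B ∩ E) := Z_diag hS hD mG
    have zGGH : Z μ S (B ∩ E) (B ∩ E) (E \ B) := Z_diag_disjoint hS hM hD dGH mG mH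
    have zHHG : Z μ S (E \ B) (E \ B) (B ∩ E) := Z_diag_disjoint hS hM hD dGH.symm mH mG
    -- split the second argument
    apply Z.swap₁₂
    apply Z.split₁ hS B hB hE mG hE
    · rw [Set.inter_comm E B]
      -- `Z G G E`
      apply Z.swap₁₃
      apply Z.split₁ hS B hB hE mG mG
      · rw [Set.inter_comm E B]; exact zGGG
      · exact zGGH.swap₁₃
    · -- `Z H G E`
      apply Z.swap₁₃
      apply Z.split₁ hS B hB hE mG mH
      · rw [Set.inter_comm E B]; exact zGGH
      · exact zHHG.swap₂₃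
  · -- `Z (B \ E) E E`
    apply Z.swap₁₃
    apply Z_diag_disjoint hS hM hD _ hE (hB.diff hE)
    rw [Set.disjoint_left]
    intro ω g1 g2
    exact g2.2 g1

/-- Symmetrised convergence for arbitrary measurable sets. -/
theorem Z_all (hM : Mix μ S) (hD : Diag μ S) {A B C : Set Ω}
    (hA : MeasurableSet A) (hB : MeasurableSet B) (hC : MeasurableSet C) : Z μ S A B C := by
  apply Z.split₁ hS B hB hA hB hC
  · -- `Z (A ∩ B) B C`
    apply Z.swap₁₂
    apply Z.split₁ hS A hA hB (hA.inter hB) hC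
    · rw [Set.inter_comm B A]
      exact Z_diag_pair hS hM hD (hA.inter hB) hC
    · apply Z_disjoint_pair hS hM hD _ (hB.diff hA) (hA.inter hB) hC
      rw [Set.disjoint_left]
      intro ω g1 g2
      exact g1.2 g2.1
  · -- `Z (A \ B) B C`
    apply Z_disjoint_pair hS hM hD _ (hA.diff hB) hB hC
    rw [Set.disjoint_left]
    intro ω g1 g2
    exact g1.2 g2

end

end Vale.Agent.Lib.P102
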